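import Crest.Agent.R323.SF

/-!
Elementary arithmetic is single-fold Diophantine.
-/

set_option autoImplicit false

namespace Crest.Agent.R323

section
variable {X Y Z : Type} [Enc X] [Enc Y] [Enc Z]

lemma SF.le {f g : X → ℕ} (hf : SFn f) (hg : SFn g) : SF (fun x => f x ≤ g x) := by
  refine (SF.ex (S := fun x (y : ℕ) => f x + y = g x) (SF.eq (by fun_prop) (by fun_prop)) ?_).congr ?_
  · intro x y y' h h'; omega
  · intro x; exact ⟨fun ⟨y, h⟩ => by omega, fun h => ⟨g x - f x, by omega⟩⟩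

lemma SF.lt {f g : X → ℕ} (hf : SFn f) (hg : SFn g) : SF (fun x => f x < g x) :=
  SF.le (f := fun x => f x + 1) (by fun_prop) hg

lemma SF.ne {f g : X → ℕ} (hf : SFn f) (hg : SFn g) : SF (fun x => f x ≠ g x) :=
  ((SF.lt hf hg).or (SF.lt hg hf) (fun x => by omega)).congr fun x => by omega

lemma SF.not_le {f g : X → ℕ} (hf : SFn f) (hg : SFn g) : SF (fun x => ¬ f x ≤ g x) :=
  (SF.lt hg hf).congr fun x => by omega

lemma SF.not_lt {f g : X → ℕ} (hf : SFn f) (hg : SFn g) : SF (fun x => ¬ f x < g x) :=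
  (SF.le hg hf).congr fun x => by omega

lemma SFn.ite {c : X → Prop} [DecidablePred c] (hc : SF c) (hc' : SF (fun x => ¬ c x))
    {f g : X → Y} (hf : SFn f) (hg : SFn g) : SFn (fun x => if c x then f x else g x) := by
  have h1 : SF (fun p : X × Y => c p.1 ∧ p.2 = f p.1) := (hc.comp SFn.fst').and hf
  have h2 : SF (fun p : X × Y => ¬ c p.1 ∧ p.2 = g p.1) := (hc'.comp SFn.fst').and hg
  refine (h1.or h2 fun p a b => b.1 a.1).congr fun p => ?_
  by_cases h : c p.1 <;> simp [h]

/-- Decompose conjunctions of (in)equalities of `SFn` terms. -/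
macro "sf" : tactic => `(tactic| repeat' first
  | assumption
  | with_reducible apply SF.and
  | with_reducible apply SF.eq
  | with_reducible apply SF.le
  | with_reducible apply SF.lt
  | with_reducible apply SF.ne
  | with_reducible apply SF.not_le
  | with_reducible apply SF.not_lt
  | fun_prop)

@[fun_prop] lemma SFn.sub {f g : X → ℕ} (hf : SFn f) (hg : SFn g) : SFn (fun x => f x - g x) := by
  have h1 : SF (fun p : X × ℕ => g p.1 ≤ f p.1 ∧ p.2 + g p.1 = f p.1) := by sf
  have h2 : SF (fun p : X × ℕ => f p.1 < g p.1 ∧ p.2 = 0) := by sf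
  exact (h1.or h2 fun p a b => by omega).congr fun p => by dsimp only; omega

@[fun_prop] lemma SFn.max {f g : X → ℕ} (hf : SFn f) (hg : SFn g) :
    SFn (fun x => max (f x) (g x)) := by
  have : (fun x => Max.max (f x) (g x)) = fun x => f x + (g x - f x) := by
    funext x; omega
  rw [this]; fun_prop

@[fun_prop] lemma SFn.pow_const {f : X → ℕ} (hf : SFn f) (k : ℕ) : SFn (fun x => f x ^ k) := by
  induction k with
  | zero => simpa using SFn.const 1
  | succ k ih => simp only [pow_succ]; fun_prop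

@[fun_prop] lemma SFn.div {f g : X → ℕ} (hf : SFn f) (hg : SFn g) : SFn (fun x => f x / g x) := by
  have h1 : SF (fun p : X × ℕ => g p.1 = 0 ∧ p.2 = 0) := by sf
  have h2 : SF (fun p : X × ℕ => p.2 * g p.1 ≤ f p.1 ∧ f p.1 < (p.2 + 1) * g p.1) := by sf
  refine (h1.or h2 fun p a b => ?_).congr fun p => ?_
  · obtain ⟨a1, a2⟩ := a
    simp [a1] at b
  · rcases Nat.eq_zero_or_pos (g p.1) with h | h
    · simp [h]
    · constructor
      · rintro (⟨a, -⟩ | ⟨a, b⟩)
        · omega
        · exact (Nat.div_eq_of_lt_le a b).symm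
      · intro a
        right
        rw [a]
        exact ⟨Nat.div_mul_le_self _ _, by
          rw [mul_comm]; exact Nat.lt_mul_div_succ _ h⟩

@[fun_prop] lemma SFn.mod {f g : X → ℕ} (hf : SFn f) (hg : SFn g) : SFn (fun x => f x % g x) := by
  have : (fun x => f x % g x) = fun x => f x - g x * (f x / g x) := by
    funext x; exact Nat.mod_def _ _
  rw [this]; fun_prop

lemma coprime_iff_exists (a b : ℕ) (hb : 0 < b) :
    Nat.Coprime a b ↔ ∃ s, s < b ∧ s * a % b = 1 % b := by
  constructor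
  · intro h
    rcases Nat.lt_or_ge 1 b with h1 | h1
    · obtain ⟨m, hm, hm'⟩ := Nat.exists_mul_mod_eq_one_of_coprime h h1
      exact ⟨m, hm, by rw [mul_comm, hm', Nat.mod_eq_of_lt h1]⟩
    · have : b = 1 := by omega
      subst this
      exact ⟨0, by simp, by simp⟩
  · rintro ⟨s, -, hs⟩
    have h1 : Nat.gcd (s * a) b = Nat.gcd 1 b := Nat.ModEq.gcd_eq hs
    have h2 : Nat.Coprime (s * a) b := by simpa using h1
    exact Nat.Coprime.coprime_mul_left h2

lemma SF.coprime {f g : X → ℕ} (hf : SFn f) (hg : SFn g) :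
    SF (fun x => Nat.Coprime (f x) (g x)) := by
  have h1 : SF (fun x => g x = 0 ∧ f x = 1) := by sf
  have h2 : SF (fun x => ∃ s, s < g x ∧ s * f x % g x = 1 % g x) := by
    refine SF.ex (by sf) ?_
    rintro x s s' ⟨a1, a2⟩ ⟨b1, b2⟩
    have hc : Nat.Coprime (f x) (g x) := (coprime_iff_exists _ _ (by omega)).2 ⟨s, a1, a2⟩
    have h3 : s * f x ≡ s' * f x [MOD g x] := a2.trans b2.symm
    have h4 : s ≡ s' [MOD g x] := Nat.ModEq.cancel_right_of_coprime hc.symm h3
    exact Nat.ModEq.eq_of_lt_of_lt h4 a1 b1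
  refine (h1.or h2 ?_).congr fun x => ?_
  · rintro x ⟨a, -⟩ ⟨s, b, -⟩; omega
  · rcases Nat.eq_zero_or_pos (g x) with h | h
    · simp [h]
    · rw [coprime_iff_exists _ _ h]
      simp [h.ne']

@[fun_prop] lemma SFn.gcd {f g : X → ℕ} (hf : SFn f) (hg : SFn g) :
    SFn (fun x => Nat.gcd (f x) (g x)) := by
  have h1 : SF (fun p : X × ℕ => f p.1 = 0 ∧ g p.1 = 0 ∧ p.2 = 0) := by sf
  have h2 : SF (fun p : X × ℕ => 0 < p.2 ∧ f p.1 % p.2 = 0 ∧ g p.1 % p.2 = 0 ∧
      Nat.Coprime (f p.1 / p.2) (g p.1 / p.2)) := by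
    refine SF.and (by sf) (SF.and (by sf) (SF.and (by sf) (SF.coprime (by fun_prop) (by fun_prop))))
  refine (h1.or h2 fun p a b => by omega).congr fun p => ?_
  obtain ⟨x, d⟩ := p
  simp only
  constructor
  · rintro (⟨a, b, c⟩ | ⟨a, b, c, e⟩)
    · simp [a, b, c]
    · obtain ⟨u, hu⟩ := Nat.dvd_of_mod_eq_zero b
      obtain ⟨v, hv⟩ := Nat.dvd_of_mod_eq_zero c
      rw [hu, hv, Nat.mul_div_cancel_left _ a, Nat.mul_div_cancel_left _ a] at e
      rw [hu, hv, Nat.gcd_mul_left, e, mul_one]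
  · rintro rfl
    rcases Nat.eq_zero_or_pos (Nat.gcd (f x) (g x)) with h | h
    · left
      exact ⟨Nat.eq_zero_of_gcd_eq_zero_left h, Nat.eq_zero_of_gcd_eq_zero_right h, h⟩
    · right
      exact ⟨h, Nat.mod_eq_zero_of_dvd (Nat.gcd_dvd_left _ _),
        Nat.mod_eq_zero_of_dvd (Nat.gcd_dvd_right _ _), Nat.coprime_div_gcd_div_gcd h⟩

@[fun_prop] lemma SFn.pair {f g : X → ℕ} (hf : SFn f) (hg : SFn g) :
    SFn (fun x => Nat.pair (f x) (g x)) := by
  unfold Nat.pair
  exact SFn.ite (by sf) (by sf) (by fun_prop) (by fun_prop)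

@[fun_prop] lemma SFn.unpair {f : X → ℕ} (hf : SFn f) : SFn (fun x => Nat.unpair (f x)) := by
  refine SFn.of_rel (R := fun x (y : ℕ × ℕ) => Nat.pair y.1 y.2 = f x) (by sf) ?_
  intro x y
  constructor
  · intro h; rw [← h]; simp
  · rintro rfl; simp

/-! ### Integers -/

instance encInt : Enc ℤ where
  ι := Unit
  fin := inferInstance
  e := Equiv.intEquivNat.trans (Equiv.funUnique Unit ℕ).symm

lemma e_int (z : ℤ) (i : Enc.ι ℤ) : Enc.e z i = Equiv.intEquivNat z := rfl

lemma intEquivNat_eq (z : ℤ) :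
    Equiv.intEquivNat z = 2 * z.toNat + 2 * (-z).toNat - (if z < 0 then 1 else 0) := by
  cases z with
  | ofNat n =>
    have : Equiv.intEquivNat (Int.ofNat n) = 2 * n := rfl
    rw [this]
    have h1 : ¬ Int.ofNat n < 0 := by simp
    simp only [h1, if_false]
    simp
  | negSucc n =>
    have : Equiv.intEquivNat (Int.negSucc n) = 2 * n + 1 := rfl
    rw [this]
    have h1 : Int.negSucc n < 0 := Int.negSucc_lt_zero n
    simp only [h1, if_true]
    omega

lemma SFn.toNat' : SFn (fun z : ℤ => z.toNat) := by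
  have h : SFn (fun z : ℤ => Equiv.intEquivNat z) := SFn.coord (X := ℤ) ()
  refine SFn.of_rel (R := fun (z : ℤ) (y : ℕ) =>
    y = (1 - Equiv.intEquivNat z % 2) * (Equiv.intEquivNat z / 2)) (by sf) ?_
  intro z y
  rw [intEquivNat_eq]
  by_cases hz : z < 0
  · have h1 : z.toNat = 0 := by omega
    have h2 : (2 * z.toNat + 2 * (-z).toNat - 1) % 2 = 1 := by omega
    simp only [hz, if_true, h2]
    simp [h1]
  · have h2 : (-z).toNat = 0 := by omega
    simp [hz, h2]

lemma SFn.negToNat' : SFn (fun z : ℤ => (-z).toNat) := by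
  have h : SFn (fun z : ℤ => Equiv.intEquivNat z) := SFn.coord (X := ℤ) ()
  refine SFn.of_rel (R := fun (z : ℤ) (y : ℕ) =>
    y = (Equiv.intEquivNat z % 2) * (Equiv.intEquivNat z / 2 + 1)) (by sf) ?_
  intro z y
  rw [intEquivNat_eq]
  by_cases hz : z < 0
  · have h1 : z.toNat = 0 := by omega
    have h2 : (2 * z.toNat + 2 * (-z).toNat - 1) % 2 = 1 := by omega
    simp only [hz, if_true, h2]
    omega
  · have h2 : (-z).toNat = 0 := by omega
    simp [hz, h2]

@[fun_prop] lemma SFn.toNat {f : X → ℤ} (hf : SFn f) : SFn (fun x => (f x).toNat) :=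
  SFn.toNat'.comp hf

lemma SFn.negToNat {f : X → ℤ} (hf : SFn f) : SFn (fun x => (-f x).toNat) :=
  SFn.negToNat'.comp hf

lemma SFn.natSub {f g : X → ℕ} (hf : SFn f) (hg : SFn g) :
    SFn (fun x => (f x : ℤ) - (g x : ℤ)) := by
  have h1 : SFn (fun p : X × ℤ => (-p.2).toNat) := SFn.negToNat (by fun_prop)
  refine SFn.of_rel (R := fun x (y : ℤ) => y.toNat + g x = (-y).toNat + f x) (by sf) ?_
  intro x y
  omega

@[fun_prop] lemma SFn.natCast {f : X → ℕ} (hf : SFn f) : SFn (fun x => (f x : ℤ)) := by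
  simpa using SFn.natSub hf (SFn.const 0)

@[fun_prop] lemma SFn.negInt {f : X → ℤ} (hf : SFn f) : SFn (fun x => -f x) := by
  have := SFn.natSub hf.negToNat hf.toNat
  convert this using 2 with x
  omega

@[fun_prop] lemma SFn.addInt {f g : X → ℤ} (hf : SFn f) (hg : SFn g) :
    SFn (fun x => f x + g x) := by
  have := SFn.natSub (hf.toNat.add hg.toNat) (hf.negToNat.add hg.negToNat)
  convert this using 2 with x
  omega

@[fun_prop] lemma SFn.subInt {f g : X → ℤ} (hf : SFn f) (hg : SFn g) :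
    SFn (fun x => f x - g x) := by
  simp only [sub_eq_add_neg]; fun_prop

@[fun_prop] lemma SFn.mulInt {f g : X → ℤ} (hf : SFn f) (hg : SFn g) :
    SFn (fun x => f x * g x) := by
  have := SFn.natSub ((hf.toNat.mul hg.toNat).add (hf.negToNat.mul hg.negToNat))
    ((hf.toNat.mul hg.negToNat).add (hf.negToNat.mul hg.toNat))
  convert this using 2 with x
  have h1 : f x = ((f x).toNat : ℤ) - ((-f x).toNat : ℤ) := by omega
  have h2 : g x = ((g x).toNat : ℤ) - ((-g x).toNat : ℤ) := by omega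
  generalize (f x).toNat = a at *
  generalize (-f x).toNat = b at *
  generalize (g x).toNat = c at *
  generalize (-g x).toNat = d at *
  rw [h1, h2]; push_cast; ring

@[fun_prop] lemma SFn.pow_constInt {f : X → ℤ} (hf : SFn f) (k : ℕ) : SFn (fun x => f x ^ k) := by
  induction k with
  | zero => simpa using SFn.const (1 : ℤ)
  | succ k ih => simp only [pow_succ]; fun_prop

@[fun_prop] lemma SFn.natAbs {f : X → ℤ} (hf : SFn f) : SFn (fun x => (f x).natAbs) := by
  have := hf.toNat.add hf.negToNat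
  convert this using 2 with x
  omega

/-- An injective `SFn` coding of any `Enc` type by natural numbers. -/
lemma exists_sfn_equiv (X : Type) [Enc X] : ∃ c : X → ℕ, SFn c ∧ Function.Injective c := by
  classical
  have key : ∀ s : Finset (Enc.ι X), ∃ c : X → ℕ, SFn c ∧
      ∀ x y, c x = c y → ∀ i ∈ s, Enc.e x i = Enc.e y i := by
    intro s
    induction s using Finset.induction_on with
    | empty => exact ⟨fun _ => 0, SFn.const 0, by simp⟩
    | insert a s ha ih =>
      obtain ⟨c, hc, hc'⟩ := ih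
      refine ⟨fun x => Nat.pair (Enc.e x a) (c x), (SFn.coord a).pair hc, ?_⟩
      intro x y h i hi
      rw [Nat.pair_eq_pair] at h
      rcases Finset.mem_insert.1 hi with rfl | hi
      · exact h.1
      · exact hc' x y h.2 i hi
  have := Fintype.ofFinite (Enc.ι X)
  obtain ⟨c, hc, hc'⟩ := key Finset.univ
  exact ⟨c, hc, fun x y h => enc_ext fun i => hc' x y h i (Finset.mem_univ _)⟩

end

end Crest.Agent.R323
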