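import Crest.Agent.R323.Code

/-!
Single-fold Diophantine predicates are closed under bounded universal quantification.
-/

set_option autoImplicit false

namespace Crest.Agent.R323

open Finset

section
variable {X Z : Type} [Enc X] [Enc Z]

/-- Coordinatewise positional code. -/
def vcode (B n : ℕ) (u : ℕ → Z) : Z := Enc.e.symm (fun j => code B n (fun i => Enc.e (u i) j))

lemma e_vcode (B n : ℕ) (u : ℕ → Z) (j : Enc.ι Z) :
    Enc.e (vcode B n u) j = code B n (fun i => Enc.e (u i) j) := by simp [vcode]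

lemma two_le_two_pow_succ (k : ℕ) : 2 ≤ 2 ^ (k + 1) := by
  calc 2 = 2 ^ 1 := by norm_num
    _ ≤ 2 ^ (k + 1) := Nat.pow_le_pow_right (by norm_num) (by omega)

lemma NP.vec {g : Z → ℕ} (hg : NP g) : ∃ (Γ : ℕ × ℕ × Z → ℕ) (bd : ℕ → ℕ), SFn Γ ∧ SFn bd ∧
    ∀ (k n M : ℕ) (u : ℕ → Z), (∀ i < n, ∀ j, Enc.e (u i) j ≤ M) → bd M < 2 ^ (k + 1) →
      (∀ i < n, g (u i) ≤ bd M) ∧
      Γ (k, n, vcode (2 ^ (k + 1)) n u) = code (2 ^ (k + 1)) n (fun i => g (u i)) := by
  induction hg with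
  | coord j =>
    refine ⟨fun p => Enc.e p.2.2 j, fun M => M, (SFn.coord j).comp (by fun_prop), by fun_prop, ?_⟩
    intro k n M u hu _
    exact ⟨fun i hi => hu i hi j, e_vcode _ _ _ _⟩
  | const c =>
    refine ⟨fun p => c * rep' (2 ^ (p.1 + 1)) p.2.1, fun _ => c, by fun_prop, by fun_prop, ?_⟩
    intro k n M u _ _
    exact ⟨fun _ _ => le_rfl, by simp only; rw [rep'_eq (two_le_two_pow_succ k), code_const]⟩
  | add _ _ ih1 ih2 =>
    obtain ⟨Γ₁, b₁, h1, h2, h3⟩ := ih1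
    obtain ⟨Γ₂, b₂, h4, h5, h6⟩ := ih2
    refine ⟨fun p => Γ₁ p + Γ₂ p, fun M => b₁ M + b₂ M, by fun_prop, by fun_prop, ?_⟩
    intro k n M u hu hb
    simp only at hb
    obtain ⟨a1, a2⟩ := h3 k n M u hu (by omega)
    obtain ⟨a3, a4⟩ := h6 k n M u hu (by omega)
    exact ⟨fun i hi => Nat.add_le_add (a1 i hi) (a3 i hi), by simp only; rw [a2, a4, code_add]⟩
  | mul _ _ ih1 ih2 =>
    obtain ⟨Γ₁, b₁, h1, h2, h3⟩ := ih1
    obtain ⟨Γ₂, b₂, h4, h5, h6⟩ := ih2
    refine ⟨fun p => dmul p.1 p.2.1 (Γ₁ p) (Γ₂ p), fun M => (b₁ M + 1) * (b₂ M + 1),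
      by fun_prop, by fun_prop, ?_⟩
    intro k n M u hu hb
    simp only at hb
    obtain ⟨a1, a2⟩ := h3 k n M u hu (by nlinarith)
    obtain ⟨a3, a4⟩ := h6 k n M u hu (by nlinarith)
    refine ⟨fun i hi => Nat.mul_le_mul (by have := a1 i hi; omega) (by have := a3 i hi; omega), ?_⟩
    simp only
    rw [a2, a4, dmul_code (fun i hi => lt_of_le_of_lt (a3 i hi) (by nlinarith))]
    intro i hi j hj
    exact lt_of_le_of_lt
      (Nat.mul_le_mul (by have := a1 i hi; omega) (by have := a3 j hj; omega)) hb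

theorem SF.ball_core {S : X → ℕ → Prop} (hS : SF (fun p : X × ℕ => S p.1 p.2)) :
    SF (fun p : X × ℕ => ∀ i < p.2, S p.1 i) := by
  classical
  obtain ⟨W, _, g₁, g₂, h1, h2, h3, h4⟩ := hS
  obtain ⟨Γ₁, b₁, c1, c2, c3⟩ := h1.np.vec
  obtain ⟨Γ₂, b₂, d1, d2, d3⟩ := h2.np.vec
  have := Fintype.ofFinite (Enc.ι X)
  have := Fintype.ofFinite (Enc.ι W)
  let σ : X → ℕ := fun x => ∑ a, Enc.e x a
  have hσ : SFn σ := SFn.sum_finset _ fun a _ => SFn.coord a
  let Mx : X → ℕ → ℕ → ℕ := fun x n M => 2 ^ M + n + σ x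
  let kk : X → ℕ → ℕ → ℕ := fun x n M => b₁ (Mx x n M) + b₂ (Mx x n M) + n * 2 ^ M + M
  let Xc : X → ℕ → X := fun x r => Enc.e.symm (fun a => Enc.e x a * r)
  have hXc : SFn (fun p : X × ℕ => Xc p.1 p.2) := by
    refine SFn.of_coord fun a => ?_
    simp only [Xc, Equiv.apply_symm_apply]
    exact SFn.mul ((SFn.coord a).comp (by fun_prop)) (by fun_prop)
  let Zc : X → ℕ → ℕ → W → (X × ℕ) × W := fun x n k w =>
    ((Xc x (rep' (2 ^ (k + 1)) n), idc (2 ^ (k + 1)) n), w)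
  let Φ : X × ℕ → ℕ × W → Prop := fun p q =>
    (∀ j, Enc.e q.2 j &&& ((2 ^ q.1 - 1) * rep' (2 ^ (kk p.1 p.2 q.1 + 1)) p.2) = Enc.e q.2 j) ∧
    q.1 = ∑ j, Enc.e q.2 j % (2 ^ (kk p.1 p.2 q.1 + 1) - 1) ∧
    Γ₁ (kk p.1 p.2 q.1, p.2, Zc p.1 p.2 (kk p.1 p.2 q.1) q.2) =
      Γ₂ (kk p.1 p.2 q.1, p.2, Zc p.1 p.2 (kk p.1 p.2 q.1) q.2)
  have hkk : SFn (fun r : (X × ℕ) × (ℕ × W) => kk r.1.1 r.1.2 r.2.1) := by
    simp only [kk, Mx]; fun_prop
  have hcoord : ∀ j, SFn (fun r : (X × ℕ) × (ℕ × W) => Enc.e r.2.2 j) := fun j =>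
    (SFn.coord j).comp (by fun_prop)
  have hZc : SFn (fun r : (X × ℕ) × (ℕ × W) => Zc r.1.1 r.1.2 (kk r.1.1 r.1.2 r.2.1) r.2.2) := by
    simp only [Zc]
    exact SFn.mk (SFn.mk (hXc.comp₂ (by fun_prop) (by fun_prop)) (by fun_prop)) (by fun_prop)
  have hΦ : SF (fun r : (X × ℕ) × (ℕ × W) => Φ r.1 r.2) := by
    refine SF.and (SF.forall_finite fun j => ?_) (SF.and ?_ ?_)
    · have := hcoord j
      exact SF.eq (by fun_prop) this
    · refine SF.eq (by fun_prop) (SFn.sum_finset _ fun j _ => ?_)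
      have := hcoord j
      fun_prop
    · exact SF.eq (c1.comp (hkk.mk (SFn.mk (by fun_prop) hZc)))
        (d1.comp (hkk.mk (SFn.mk (by fun_prop) hZc)))
  have hZ : ∀ x n k (w : ℕ → W), Zc x n k (vcode (2 ^ (k + 1)) n w) =
      vcode (2 ^ (k + 1)) n (fun i => ((x, i), w i)) := by
    intro x n k w
    refine enc_ext ?_
    rintro ((a | a) | j)
    · rw [e_vcode]
      simp only [Zc, Xc, e_prod_inl, Equiv.apply_symm_apply]
      rw [rep'_eq (two_le_two_pow_succ k), code_const]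
    · rw [e_vcode]
      simp only [Zc, e_prod_inl, e_prod_inr, e_nat]
      rw [idc_eq (two_le_two_pow_succ k)]; rfl
    · rw [e_vcode]
      simp only [Zc, e_prod_inr]
      rw [e_vcode]
  have main : ∀ x n M (w : ℕ → W), (∀ i < n, ∀ j, Enc.e (w i) j < 2 ^ M) →
      (∑ j, Enc.e (vcode (2 ^ (kk x n M + 1)) n w) j % (2 ^ (kk x n M + 1) - 1) =
        ∑ j, ∑ i ∈ range n, Enc.e (w i) j) ∧
      (Γ₁ (kk x n M, n, Zc x n (kk x n M) (vcode (2 ^ (kk x n M + 1)) n w)) =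
        Γ₂ (kk x n M, n, Zc x n (kk x n M) (vcode (2 ^ (kk x n M + 1)) n w)) ↔
        ∀ i < n, g₁ ((x, i), w i) = g₂ ((x, i), w i)) := by
    intro x n M w hw
    have hk : kk x n M + 1 < 2 ^ (kk x n M + 1) := Nat.lt_two_pow_self
    have hk' : kk x n M = b₁ (Mx x n M) + b₂ (Mx x n M) + n * 2 ^ M + M := rfl
    constructor
    · refine sum_congr rfl fun j _ => ?_
      rw [e_vcode, code_mod_sub (B := 1) (by omega), code_one]
      rw [code_one]
      have : ∑ i ∈ range n, Enc.e (w i) j ≤ n * 2 ^ M := by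
        have := sum_le_card_nsmul (range n) (fun i => Enc.e (w i) j) (2 ^ M)
          (fun i hi => (hw i (mem_range.1 hi) j).le)
        simpa using this
      omega
    · have hu : ∀ i < n, ∀ j, Enc.e (((x, i), w i) : (X × ℕ) × W) j ≤ Mx x n M := by
        have hp : 0 < 2 ^ M := by positivity
        rintro i hi ((a | a) | j)
        · have : Enc.e x a ≤ σ x := single_le_sum (f := fun a => Enc.e x a)
            (fun _ _ => Nat.zero_le _) (mem_univ a)
          simp only [e_prod_inl, Mx]; omega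
        · simp only [e_prod_inl, e_prod_inr, e_nat, Mx]; omega
        · have := hw i hi j
          simp only [e_prod_inr, Mx]; omega
      obtain ⟨a1, a2⟩ := c3 (kk x n M) n _ _ hu (by omega)
      obtain ⟨a3, a4⟩ := d3 (kk x n M) n _ _ hu (by omega)
      rw [hZ, a2, a4]
      constructor
      · exact code_inj (fun i hi => lt_of_le_of_lt (a1 i hi) (by omega))
          (fun i hi => lt_of_le_of_lt (a3 i hi) (by omega))
      · exact code_congr
  have sound : ∀ x n M Wc, Φ (x, n) (M, Wc) → ∃ w : ℕ → W, Wc = vcode (2 ^ (kk x n M + 1)) n w ∧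
      M = ∑ j, ∑ i ∈ range n, Enc.e (w i) j ∧ ∀ i < n, g₁ ((x, i), w i) = g₂ ((x, i), w i) := by
    rintro x n M Wc ⟨p1, p2, p3⟩
    simp only at p1 p2 p3
    have hk' : kk x n M = b₁ (Mx x n M) + b₂ (Mx x n M) + n * 2 ^ M + M := rfl
    choose u hu1 hu2 using fun j => (mask_iff (by omega) (by omega) _).1 (p1 j)
    let w : ℕ → W := fun i => Enc.e.symm (fun j => u j i)
    have hw : ∀ i j, Enc.e (w i) j = u j i := fun i j => by simp [w]
    have e : Wc = vcode (2 ^ (kk x n M + 1)) n w := by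
      refine enc_ext fun j => ?_
      rw [e_vcode, hu2 j]; simp only [hw]
    obtain ⟨m1, m2⟩ := main x n M w (fun i hi j => by rw [hw]; exact hu1 j i hi)
    refine ⟨w, e, ?_, ?_⟩
    · rw [← m1, ← e]; exact p2
    · rw [← m2, ← e]; exact p3
  refine (SF.ex hΦ ?_).congr ?_
  · rintro ⟨x, n⟩ ⟨M, Wc⟩ ⟨M', Wc'⟩ a b
    obtain ⟨w, a1, a2, a3⟩ := sound _ _ _ _ a
    obtain ⟨w', b1, b2, b3⟩ := sound _ _ _ _ b
    have hw : ∀ i < n, w i = w' i := fun i hi => h4 _ _ _ (a3 i hi) (b3 i hi)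
    have hM : M = M' := by
      rw [a2, b2]
      exact sum_congr rfl fun j _ => sum_congr rfl fun i hi => by rw [hw i (mem_range.1 hi)]
    subst hM
    rw [a1, b1]
    congr 1
    refine enc_ext fun j => ?_
    rw [e_vcode, e_vcode]
    exact code_congr fun i hi => by rw [hw i hi]
  · rintro ⟨x, n⟩
    constructor
    · rintro ⟨⟨M, Wc⟩, a⟩ i hi
      obtain ⟨w, -, -, a3⟩ := sound _ _ _ _ a
      exact (h3 (x, i)).2 ⟨_, a3 i hi⟩
    · intro h
      have h' : ∀ i, ∃ w : W, i < n → g₁ ((x, i), w) = g₂ ((x, i), w) := by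
        intro i
        by_cases hi : i < n
        · obtain ⟨w, hw⟩ := (h3 (x, i)).1 (h i hi)
          exact ⟨w, fun _ => hw⟩
        · exact ⟨Enc.e.symm 0, fun h => (hi h).elim⟩
      choose w hw using h'
      set M := ∑ j, ∑ i ∈ range n, Enc.e (w i) j with hM
      have hb : ∀ i < n, ∀ j, Enc.e (w i) j < 2 ^ M := by
        intro i hi j
        have e1 : Enc.e (w i) j ≤ ∑ i ∈ range n, Enc.e (w i) j :=
          single_le_sum (f := fun i => Enc.e (w i) j) (fun _ _ => Nat.zero_le _) (mem_range.2 hi)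
        have e2 : ∑ i ∈ range n, Enc.e (w i) j ≤ M :=
          single_le_sum (f := fun j => ∑ i ∈ range n, Enc.e (w i) j) (fun _ _ => Nat.zero_le _)
            (mem_univ j)
        have e3 : M < 2 ^ M := Nat.lt_two_pow_self
        omega
      obtain ⟨m1, m2⟩ := main x n M w hb
      have hk' : kk x n M = b₁ (Mx x n M) + b₂ (Mx x n M) + n * 2 ^ M + M := rfl
      refine ⟨(M, vcode (2 ^ (kk x n M + 1)) n w), fun j => ?_, m1.symm, m2.2 hw⟩
      exact (mask_iff (k := kk x n M + 1) (by omega) (by omega) _).2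
        ⟨_, fun i hi => hb i hi j, e_vcode _ _ _ _⟩

theorem SF.ball {S : X → ℕ → Prop} (hS : SF (fun p : X × ℕ => S p.1 p.2)) {n : X → ℕ}
    (hn : SFn n) : SF (fun x => ∀ i < n x, S x i) :=
  hS.ball_core.comp (f := fun x => (x, n x)) (by fun_prop)

end

end Crest.Agent.R323
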