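import Crest.Agent.R323.Pow

/-!
Positional codes, binomial coefficients, bitwise conjunction, digitwise multiplication.
-/

set_option autoImplicit false

namespace Crest.Agent.R323

open Finset

/-- Positional code of `u 0, …, u (n-1)` in base `B`. -/
def code (B n : ℕ) (u : ℕ → ℕ) : ℕ := ∑ i ∈ range n, u i * B ^ i

/-- The `i`-th digit in base `B`. -/
def digit (B U i : ℕ) : ℕ := U / B ^ i % B

@[simp] lemma code_zero (B : ℕ) (u : ℕ → ℕ) : code B 0 u = 0 := by simp [code]

lemma code_succ (B n : ℕ) (u : ℕ → ℕ) : code B (n + 1) u = code B n u + u n * B ^ n := by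
  simp [code, sum_range_succ]

lemma code_succ' (B n : ℕ) (u : ℕ → ℕ) :
    code B (n + 1) u = u 0 + B * code B n (fun i => u (i + 1)) := by
  simp only [code, sum_range_succ', mul_sum, pow_zero, mul_one]
  rw [add_comm]; congr 1
  exact sum_congr rfl fun i _ => by ring

lemma code_congr {B n : ℕ} {u v : ℕ → ℕ} (h : ∀ i < n, u i = v i) : code B n u = code B n v :=
  sum_congr rfl fun i hi => by rw [h i (mem_range.1 hi)]

lemma code_lt {B n : ℕ} {u : ℕ → ℕ} (h : ∀ i < n, u i < B) : code B n u < B ^ n := by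
  induction n with
  | zero => simp
  | succ n ih =>
    have h1 := ih fun i hi => h i (by omega)
    have h2 : u n + 1 ≤ B := h n (by omega)
    rw [code_succ, pow_succ]
    nlinarith [Nat.mul_le_mul_right (B ^ n) h2]

lemma digit_code {B n : ℕ} {u : ℕ → ℕ} (h : ∀ i < n, u i < B) {i : ℕ} (hi : i < n) :
    digit B (code B n u) i = u i := by
  induction i generalizing n u with
  | zero =>
    obtain ⟨n, rfl⟩ := Nat.exists_eq_succ_of_ne_zero (show n ≠ 0 by omega)
    simp [digit, code_succ', Nat.mod_eq_of_lt (h 0 hi)]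
  | succ i ih =>
    obtain ⟨n, rfl⟩ := Nat.exists_eq_succ_of_ne_zero (show n ≠ 0 by omega)
    have hB : 0 < B := lt_of_le_of_lt (Nat.zero_le _) (h 0 (by omega))
    have := ih (n := n) (u := fun i => u (i + 1)) (fun j hj => h (j + 1) (by omega)) (by omega)
    rw [← this, digit, digit, code_succ', pow_succ', ← Nat.div_div_eq_div_mul,
      Nat.add_mul_div_left _ _ hB, Nat.div_eq_of_lt (h 0 (by omega)), zero_add]

lemma code_digit (B n U : ℕ) : code B n (digit B U) = U % B ^ n := by
  induction n with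
  | zero => simp [Nat.mod_one]
  | succ n ih => rw [code_succ, ih, Nat.mod_pow_succ, digit]; ring

lemma digit_lt {B : ℕ} (hB : 0 < B) (U i : ℕ) : digit B U i < B := Nat.mod_lt _ hB

lemma code_inj {B n : ℕ} {u v : ℕ → ℕ} (hu : ∀ i < n, u i < B) (hv : ∀ i < n, v i < B)
    (h : code B n u = code B n v) : ∀ i < n, u i = v i := fun i hi => by
  rw [← digit_code hu hi, h, digit_code hv hi]

lemma code_add (B n : ℕ) (u v : ℕ → ℕ) :
    code B n (fun i => u i + v i) = code B n u + code B n v := by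
  simp [code, add_mul, sum_add_distrib]

lemma code_mul_const (B n c : ℕ) (u : ℕ → ℕ) :
    code B n (fun i => u i * c) = code B n u * c := by
  simp only [code, sum_mul]
  exact sum_congr rfl fun i _ => by ring

lemma code_modEq {B C m : ℕ} (h : C ≡ B [MOD m]) (n : ℕ) (u : ℕ → ℕ) :
    code C n u ≡ code B n u [MOD m] := by
  induction n with
  | zero => simp [Nat.ModEq.refl]
  | succ n ih => rw [code_succ, code_succ]; exact ih.add ((h.pow n).mul_left _)

lemma code_one (n : ℕ) (u : ℕ → ℕ) : code 1 n u = ∑ i ∈ range n, u i := by simp [code]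

lemma code_mod_sub {B C n : ℕ} (hBC : B ≤ C) {u : ℕ → ℕ} (h : code B n u < C - B) :
    code C n u % (C - B) = code B n u := by
  have h1 : C ≡ B [MOD C - B] := ((Nat.modEq_iff_dvd' hBC).2 dvd_rfl).symm
  rw [code_modEq h1 n u, Nat.mod_eq_of_lt h]

lemma code_single (B n j c : ℕ) (hj : j < n) :
    code B n (fun i => if i = j then c else 0) = c * B ^ j := by
  simp [code, hj]

lemma land_split {k a b : ℕ} (ha : a < 2 ^ k) (hb : b < 2 ^ k) (x y : ℕ) :
    (a + 2 ^ k * x) &&& (b + 2 ^ k * y) = (a &&& b) + 2 ^ k * (x &&& y) := by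
  have hp : 0 < 2 ^ k := by positivity
  rw [← Nat.mod_add_div ((a + 2 ^ k * x) &&& (b + 2 ^ k * y)) (2 ^ k), Nat.and_mod_two_pow,
    Nat.and_div_two_pow, Nat.add_mul_mod_self_left, Nat.add_mul_mod_self_left,
    Nat.add_mul_div_left _ _ hp, Nat.add_mul_div_left _ _ hp, Nat.mod_eq_of_lt ha,
    Nat.mod_eq_of_lt hb, Nat.div_eq_of_lt ha, Nat.div_eq_of_lt hb, zero_add, zero_add]

lemma land_code {k n : ℕ} {u v : ℕ → ℕ} (hu : ∀ i < n, u i < 2 ^ k) (hv : ∀ i < n, v i < 2 ^ k) :
    code (2 ^ k) n u &&& code (2 ^ k) n v = code (2 ^ k) n (fun i => u i &&& v i) := by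
  induction n generalizing u v with
  | zero => simp
  | succ n ih =>
    rw [code_succ', code_succ', code_succ', land_split (hu 0 (by omega)) (hv 0 (by omega)),
      ih (fun i hi => hu (i + 1) (by omega)) (fun i hi => hv (i + 1) (by omega))]

lemma choose_eq_digit (n k : ℕ) :
    n.choose k = digit (2 ^ (n + 1)) ((2 ^ (n + 1) + 1) ^ n) k := by
  have h1 : (2 ^ (n + 1) + 1) ^ n = code (2 ^ (n + 1)) (n + 1) (fun i => n.choose i) := by
    rw [add_pow, code]
    exact sum_congr rfl fun i _ => by simp [mul_comm]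
  have h2 : ∀ i < n + 1, n.choose i < 2 ^ (n + 1) := fun i _ =>
    lt_of_le_of_lt (Nat.choose_le_two_pow n i) (Nat.pow_lt_pow_right (by norm_num) (by omega))
  rw [h1]
  rcases Nat.lt_or_ge k (n + 1) with hk | hk
  · rw [digit_code h2 hk]
  · rw [Nat.choose_eq_zero_of_lt (by omega), digit, Nat.div_eq_of_lt, Nat.zero_mod]
    exact lt_of_lt_of_le (code_lt h2) (Nat.pow_le_pow_right (by positivity) hk)

lemma land_bits (x y e f : ℕ) (he : e < 2) (hf : f < 2) :
    (e + 2 * x) &&& (f + 2 * y) = e * f + 2 * (x &&& y) := by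
  have := land_split (k := 1) (a := e) (b := f) (by simpa using he) (by simpa using hf) x y
  simp only [pow_one] at this
  rw [this]
  interval_cases e <;> interval_cases f <;> simp

lemma odd_choose_iff (n k : ℕ) : n.choose k % 2 = 1 ↔ k &&& n = k := by
  induction n using Nat.strong_induction_on generalizing k with
  | _ n ih =>
    rcases Nat.eq_zero_or_pos n with rfl | hn
    · cases k <;> simp
    have : Fact (Nat.Prime 2) := ⟨Nat.prime_two⟩
    have h1 : n.choose k % 2 = ((n % 2).choose (k % 2) * (n / 2).choose (k / 2)) % 2 :=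
      Choose.choose_modEq_choose_mod_mul_choose_div_nat
    have h2 := ih (n / 2) (by omega) (k / 2)
    have h3 := land_bits (k / 2) (n / 2) (k % 2) (n % 2) (by omega) (by omega)
    rw [Nat.mod_add_div, Nat.mod_add_div] at h3
    rw [h1, h3]
    have h4 := Nat.and_le_left (n := k / 2) (m := n / 2)
    rcases Nat.mod_two_eq_zero_or_one n with a | a <;>
      rcases Nat.mod_two_eq_zero_or_one k with b | b <;> simp only [a, b] <;> simp [h2] <;> omega

lemma land_eq_zero_iff (d b : ℕ) : d &&& b = 0 ↔ b &&& (d + b) = b := by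
  induction b using Nat.strong_induction_on generalizing d with
  | _ b ih =>
    rcases Nat.eq_zero_or_pos b with rfl | hb
    · simp
    have h2 := ih (b / 2) (by omega) (d / 2)
    have h3 := land_bits (d / 2) (b / 2) (d % 2) (b % 2) (by omega) (by omega)
    have h4 := land_bits (b / 2) ((d + b) / 2) (b % 2) ((d + b) % 2) (by omega) (by omega)
    rw [Nat.mod_add_div, Nat.mod_add_div] at h3 h4
    rw [h3, h4]
    have h5 := Nat.and_le_left (n := b / 2) (m := (d + b) / 2)
    rcases Nat.mod_two_eq_zero_or_one b with a | a <;>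
      rcases Nat.mod_two_eq_zero_or_one d with c | c
    · rw [show (d + b) / 2 = d / 2 + b / 2 by omega] at *; simp only [a, c]; omega
    · rw [show (d + b) / 2 = d / 2 + b / 2 by omega] at *; simp only [a, c]; omega
    · rw [show (d + b) / 2 = d / 2 + b / 2 by omega] at *
      rw [show (d + b) % 2 = 1 by omega]; simp only [a, c]; omega
    · rw [show (d + b) % 2 = 0 by omega]; simp only [a, c]; omega

lemma land_add (b c d : ℕ) (h1 : c &&& b = c) (h2 : d &&& b = 0) : (c + d) &&& b = c := by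
  induction b using Nat.strong_induction_on generalizing c d with
  | _ b ih =>
    rcases Nat.eq_zero_or_pos b with rfl | hb
    · simpa using h1
    have h3 := land_bits (d / 2) (b / 2) (d % 2) (b % 2) (by omega) (by omega)
    have h4 := land_bits (c / 2) (b / 2) (c % 2) (b % 2) (by omega) (by omega)
    have h5 := land_bits ((c + d) / 2) (b / 2) ((c + d) % 2) (b % 2) (by omega) (by omega)
    rw [Nat.mod_add_div, Nat.mod_add_div] at h3 h4 h5
    rw [h2] at h3
    rw [h1] at h4
    have h6 := ih (b / 2) (by omega) (c / 2) (d / 2)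
    rw [h5]
    rcases Nat.mod_two_eq_zero_or_one b with a | a <;>
      rcases Nat.mod_two_eq_zero_or_one c with e | e <;>
      rcases Nat.mod_two_eq_zero_or_one d with f | f <;> simp only [a, e, f] at h3 h4 <;>
      first
      | omega
      | (rw [show (c + d) / 2 = c / 2 + d / 2 by omega, h6 (by omega) (by omega), a]; omega)

lemma sub_land (a b : ℕ) : (a - (a &&& b)) &&& b = 0 := by
  induction b using Nat.strong_induction_on generalizing a with
  | _ b ih =>
    rcases Nat.eq_zero_or_pos b with rfl | hb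
    · simp
    have h3 := land_bits (a / 2) (b / 2) (a % 2) (b % 2) (by omega) (by omega)
    have h4 := land_bits ((a - (a &&& b)) / 2) (b / 2) ((a - (a &&& b)) % 2) (b % 2)
      (by omega) (by omega)
    rw [Nat.mod_add_div, Nat.mod_add_div] at h3 h4
    have h5 := Nat.and_le_left (n := a / 2) (m := b / 2)
    have h6 := ih (b / 2) (by omega) (a / 2)
    rw [h4]
    rcases Nat.mod_two_eq_zero_or_one b with e | e <;>
      rcases Nat.mod_two_eq_zero_or_one a with f | f <;> simp only [e, f] at h3 <;>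
      rw [show (a - (a &&& b)) / 2 = a / 2 - (a / 2 &&& b / 2) by omega, h6, e] <;> omega

section
variable {X : Type} [Enc X]

@[fun_prop] lemma SFn.digit {f g h : X → ℕ} (hf : SFn f) (hg : SFn g) (hh : SFn h) :
    SFn (fun x => digit (f x) (g x) (h x)) := by
  unfold Crest.Agent.R323.digit; fun_prop

@[fun_prop] lemma SFn.choose {f g : X → ℕ} (hf : SFn f) (hg : SFn g) :
    SFn (fun x => (f x).choose (g x)) := by
  simp only [choose_eq_digit]; fun_prop

@[fun_prop] lemma SFn.land {f g : X → ℕ} (hf : SFn f) (hg : SFn g) :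
    SFn (fun x => f x &&& g x) := by
  refine SFn.of_rel (R := fun x (c : ℕ) => c ≤ f x ∧ (g x).choose c % 2 = 1 ∧
    (f x - c + g x).choose (g x) % 2 = 1) (by sf) ?_
  intro x c
  rw [odd_choose_iff, odd_choose_iff, ← land_eq_zero_iff]
  constructor
  · rintro ⟨a1, a2, a3⟩
    have := land_add _ _ _ a2 a3
    rw [show c + (f x - c) = f x by omega] at this
    exact this.symm
  · rintro rfl
    exact ⟨Nat.and_le_left, by rw [Nat.and_assoc, Nat.and_self], sub_land _ _⟩

/-- The repunit. -/
def rep (B n : ℕ) : ℕ := code B n (fun _ => 1)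

lemma rep_mul (B n : ℕ) : rep B n * B + 1 = rep B n + B ^ n := by
  induction n with
  | zero => simp [rep]
  | succ n ih =>
    simp only [rep, code_succ] at ih ⊢
    rw [pow_succ]; nlinarith

lemma code_const (B n c : ℕ) : code B n (fun _ => c) = c * rep B n := by
  have := code_mul_const B n c (fun _ => 1)
  simp only [one_mul] at this
  rw [this, rep, mul_comm]

/-- Closed form of the repunit. -/
def rep' (B n : ℕ) : ℕ := (B ^ n - 1) / (B - 1)

lemma rep'_eq {B : ℕ} (hB : 2 ≤ B) (n : ℕ) : rep' B n = rep B n := by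
  have := rep_mul B n
  obtain ⟨C, rfl⟩ := Nat.exists_eq_add_of_le' (show 1 ≤ B by omega)
  rw [rep']
  refine Nat.div_eq_of_eq_mul_left (by omega) ?_
  rw [Nat.add_sub_cancel]
  rw [mul_add] at this
  omega

@[fun_prop] lemma SFn.rep' {f g : X → ℕ} (hf : SFn f) (hg : SFn g) :
    SFn (fun x => rep' (f x) (g x)) := by
  unfold Crest.Agent.R323.rep'; fun_prop

lemma code_id_mul (B n : ℕ) :
    code B n id * B + B ^ n + rep B n = code B n id + n * B ^ n + 1 := by
  induction n with
  | zero => simp [rep]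
  | succ n ih =>
    simp only [rep, code_succ, id] at ih ⊢
    rw [pow_succ]; nlinarith

/-- Closed form of the code of the identity. -/
def idc (B n : ℕ) : ℕ := (n * B ^ n + 1 - B ^ n - rep' B n) / (B - 1)

lemma idc_eq {B : ℕ} (hB : 2 ≤ B) (n : ℕ) : idc B n = code B n id := by
  have := code_id_mul B n
  rw [idc, rep'_eq hB]
  obtain ⟨C, rfl⟩ := Nat.exists_eq_add_of_le' (show 1 ≤ B by omega)
  refine Nat.div_eq_of_eq_mul_left (by omega) ?_
  rw [Nat.add_sub_cancel]
  rw [mul_add] at this
  omega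

@[fun_prop] lemma SFn.idc {f g : X → ℕ} (hf : SFn f) (hg : SFn g) :
    SFn (fun x => idc (f x) (g x)) := by
  unfold Crest.Agent.R323.idc; fun_prop

lemma mask_iff {k m n : ℕ} (hm : m ≤ k) (hk : 1 ≤ k) (W : ℕ) :
    W &&& ((2 ^ m - 1) * rep' (2 ^ k) n) = W ↔
      ∃ u : ℕ → ℕ, (∀ i < n, u i < 2 ^ m) ∧ W = code (2 ^ k) n u := by
  have h2 : 2 ≤ 2 ^ k := by
    calc 2 = 2 ^ 1 := by norm_num
      _ ≤ 2 ^ k := Nat.pow_le_pow_right (by norm_num) hk
  have h3 : 2 ^ m ≤ 2 ^ k := Nat.pow_le_pow_right (by norm_num) hm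
  have h4 : 0 < 2 ^ m := by positivity
  have h5 : ∀ i < n, 2 ^ m - 1 < 2 ^ k := fun _ _ => by omega
  rw [rep'_eq h2, ← code_const]
  constructor
  · intro h
    have h6 : W < (2 ^ k) ^ n := by
      rw [← h]; exact lt_of_le_of_lt Nat.and_le_right (code_lt h5)
    have h7 : W = code (2 ^ k) n (digit (2 ^ k) W) := by rw [code_digit, Nat.mod_eq_of_lt h6]
    refine ⟨fun i => digit (2 ^ k) W i &&& (2 ^ m - 1), fun i _ => ?_, ?_⟩
    · exact lt_of_le_of_lt Nat.and_le_right (by omega)
    · rw [← land_code (fun i _ => digit_lt (by omega) _ _) h5, ← h7, h]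
  · rintro ⟨u, hu, rfl⟩
    rw [land_code (fun i hi => lt_of_lt_of_le (hu i hi) h3) h5]
    exact code_congr fun i hi => Nat.and_two_pow_sub_one_of_lt_two_pow (hu i hi)

/-- Base change from `2^k` to `2^(k(n+1))`. -/
def spread (k n V : ℕ) : ℕ := code (2 ^ (k * (n + 1))) n (digit (2 ^ k) V)

lemma pow_aux {B : ℕ} (hB : 2 ≤ B) (n : ℕ) : B ^ n ≤ B ^ (n + 1) - B ∨ n = 0 := by
  rcases Nat.eq_zero_or_pos n with h | h
  · exact Or.inr h
  · left
    have h1 : B ≤ B ^ n := Nat.le_self_pow h.ne' B
    rw [pow_succ]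
    have := Nat.mul_le_mul_left (B ^ n) hB
    omega

lemma code_mod_pow {B n m : ℕ} (hB : 2 ≤ B) (hm : n ≤ m) {u : ℕ → ℕ} (hu : ∀ i < n, u i < B) :
    code (B ^ (m + 1)) n u % (B ^ (m + 1) - B) = code B n u := by
  rcases pow_aux hB m with h | h
  · refine code_mod_sub (Nat.le_self_pow (by omega) B) (lt_of_lt_of_le (code_lt hu) ?_)
    exact (Nat.pow_le_pow_right (by omega) hm).trans h
  · have : n = 0 := by omega
    subst this; simp

lemma sfn_spread : SFn (fun p : ℕ × ℕ × ℕ => spread (p.1 + 1) p.2.1 p.2.2) := by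
  refine SFn.of_rel (R := fun (p : ℕ × ℕ × ℕ) (W : ℕ) =>
    W &&& ((2 ^ (p.1 + 1) - 1) * rep' (2 ^ ((p.1 + 1) * (p.2.1 + 1))) p.2.1) = W ∧
    W % ((2 ^ (p.1 + 1)) ^ (p.2.1 + 1) - 2 ^ (p.1 + 1)) = p.2.2 % (2 ^ (p.1 + 1)) ^ p.2.1)
    (by sf) ?_
  rintro ⟨k, n, V⟩ W
  simp only
  have h2 : 2 ≤ 2 ^ (k + 1) := by
    calc 2 = 2 ^ 1 := by norm_num
      _ ≤ 2 ^ (k + 1) := Nat.pow_le_pow_right (by norm_num) (by omega)
  rw [mask_iff (by nlinarith) (by nlinarith), spread, pow_mul]
  constructor
  · rintro ⟨⟨u, hu, rfl⟩, h⟩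
    rw [code_mod_pow h2 le_rfl hu, ← code_digit] at h
    exact code_congr (code_inj hu (fun i _ => digit_lt (by omega) _ _) h)
  · rintro rfl
    refine ⟨⟨_, fun i _ => digit_lt (by omega) _ _, rfl⟩, ?_⟩
    rw [code_mod_pow h2 le_rfl (fun i _ => digit_lt (by omega) _ _), code_digit]

@[fun_prop] lemma SFn.spread {f g h : X → ℕ} (hf : SFn f) (hg : SFn g) (hh : SFn h) :
    SFn (fun x => spread (f x + 1) (g x) (h x)) :=
  sfn_spread.comp (hf.mk (hg.mk hh))

/-- Digitwise multiplication in base `2^(k+1)`. -/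
def dmul (k n U V : ℕ) : ℕ :=
  ((U * spread (k + 1) n V) &&& ((2 ^ (k + 1) - 1) * rep' ((2 ^ (k + 1)) ^ (n + 2)) n)) %
    ((2 ^ (k + 1)) ^ (n + 2) - 2 ^ (k + 1))

@[fun_prop] lemma SFn.dmul {f g h l : X → ℕ} (hf : SFn f) (hg : SFn g) (hh : SFn h) (hl : SFn l) :
    SFn (fun x => dmul (f x) (g x) (h x) (l x)) := by
  unfold Crest.Agent.R323.dmul; fun_prop

lemma dmul_code {k n : ℕ} {u v : ℕ → ℕ} (hv : ∀ i < n, v i < 2 ^ (k + 1))
    (huv : ∀ i < n, ∀ j < n, u i * v j < 2 ^ (k + 1)) :
    dmul k n (code (2 ^ (k + 1)) n u) (code (2 ^ (k + 1)) n v) =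
      code (2 ^ (k + 1)) n (fun i => u i * v i) := by
  set B := 2 ^ (k + 1) with hB
  have h2 : 2 ≤ B := by
    calc 2 = 2 ^ 1 := by norm_num
      _ ≤ 2 ^ (k + 1) := Nat.pow_le_pow_right (by norm_num) (by omega)
  set C := 2 ^ ((k + 1) * (n + 1)) with hC
  have hCB : C = B ^ (n + 1) := by rw [hC, hB, pow_mul]
  have hle : B ^ n ≤ C := by rw [hCB]; exact Nat.pow_le_pow_right (by omega) (by omega)
  have e1 : spread (k + 1) n (code B n v) = code C n v :=
    code_congr fun i hi => digit_code hv hi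
  have e2 : code B n u * code C n v = code C n (fun j => code B n (fun i => u i * v j)) := by
    simp only [code_mul_const]
    rw [mul_comm, ← code_mul_const]
    exact code_congr fun i _ => mul_comm _ _
  have e3 : (B - 1) * rep' (B ^ (n + 2)) n =
      code C n (fun j => code B n (fun i => if i = j then B - 1 else 0)) := by
    rw [rep'_eq (le_trans h2 (Nat.le_self_pow (by omega) B)), ← code_const]
    refine sum_congr rfl fun j hj => ?_
    simp only
    rw [code_single _ _ _ _ (mem_range.1 hj), hCB, mul_assoc, ← mul_pow, ← pow_succ']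
  have b1 : ∀ j, ∀ i < n, (if i = j then B - 1 else 0) < B := by
    intro j i _; split_ifs <;> omega
  have e4 : code C n (fun j => code B n (fun i => u i * v j)) &&&
      code C n (fun j => code B n (fun i => if i = j then B - 1 else 0)) =
      code (B ^ (n + 2)) n (fun i => u i * v i) := by
    rw [hC, land_code (fun j hj => lt_of_lt_of_le (code_lt fun i hi => huv i hi j hj) hle)
      (fun j hj => lt_of_lt_of_le (code_lt (b1 j)) hle), ← hC]
    refine sum_congr rfl fun j hj => ?_
    have hj' := mem_range.1 hj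
    have e5 : code B n (fun i => u i * v j) &&& code B n (fun i => if i = j then B - 1 else 0) =
        code B n (fun i => if i = j then u j * v j else 0) := by
      rw [hB, land_code (fun i hi => huv i hi j hj') (b1 j)]
      refine code_congr fun i hi => ?_
      split_ifs with h
      · subst h; exact Nat.and_two_pow_sub_one_of_lt_two_pow (huv i hi i hi)
      · simp
    simp only
    rw [e5, code_single _ _ _ _ hj', hCB, mul_assoc, ← mul_pow, ← pow_succ']
  rw [dmul, ← hB, e1, e2, e3, e4, code_mod_pow h2 (by omega) (fun i hi => huv i hi i hi)]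

end

end Crest.Agent.R323
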