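import Mathlib

/-!
The elliptic curve `y² = x³ - 2x` over `ℚ`: naive height and approximate parallelogram law.
-/

set_option autoImplicit false

namespace Crest.Agent.R323

open WeierstrassCurve WeierstrassCurve.Affine Height

/-- The curve `y² = x³ - 2x`. -/
def EW : WeierstrassCurve ℚ := ⟨0, 0, 0, -2, 0⟩

@[simp] lemma EW_a₁ : EW.a₁ = 0 := rfl
@[simp] lemma EW_a₂ : EW.a₂ = 0 := rfl
@[simp] lemma EW_a₃ : EW.a₃ = 0 := rfl
@[simp] lemma EW_a₄ : EW.a₄ = -2 := rfl
@[simp] lemma EW_a₆ : EW.a₆ = 0 := rfl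

lemma EW_Δ : EW.Δ = 512 := by
  simp [WeierstrassCurve.Δ, b₂, b₄, b₆, b₈]; norm_num

instance : EW.IsElliptic := ⟨by rw [EW_Δ]; exact IsUnit.mk0 _ (by norm_num)⟩

/-- The group of rational points. -/
abbrev G : Type := EW.toAffine.Point

lemma ns_iff (x y : ℚ) : EW.toAffine.Nonsingular x y ↔ y ^ 2 = x ^ 3 - 2 * x := by
  rw [← equation_iff_nonsingular, equation_iff]
  simp only [EW_a₁, EW_a₂, EW_a₃, EW_a₄, EW_a₆]
  constructor <;> intro h <;> linear_combination h

/-- An affine point. -/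
def pt (x y : ℚ) (h : y ^ 2 = x ^ 3 - 2 * x) : G := Point.some x y ((ns_iff x y).2 h)

lemma G_cases (Q : G) : Q = 0 ∨ ∃ x y h, Q = pt x y h := by
  rcases Q with _ | ⟨x, y, h⟩
  · exact Or.inl rfl
  · exact Or.inr ⟨x, y, (ns_iff x y).1 h, rfl⟩

lemma pt_ne_zero {x y : ℚ} (h : y ^ 2 = x ^ 3 - 2 * x) : pt x y h ≠ 0 := Point.some_ne_zero _

lemma pt_inj {x y x' y' : ℚ} {h : y ^ 2 = x ^ 3 - 2 * x} {h' : y' ^ 2 = x' ^ 3 - 2 * x'} :
    pt x y h = pt x' y' h' ↔ x = x' ∧ y = y' := by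
  simp [pt]

lemma neg_pt {x y : ℚ} (h : y ^ 2 = x ^ 3 - 2 * x) :
    -pt x y h = pt x (-y) (by rw [neg_sq]; exact h) := by
  simp [pt, Point.neg_some]

@[simp] lemma xRep_pt {x y : ℚ} (h : y ^ 2 = x ^ 3 - 2 * x) : (pt x y h).xRep = ![x, 1] := rfl

lemma add_pt_ne {x y x' y' : ℚ} (h : y ^ 2 = x ^ 3 - 2 * x) (h' : y' ^ 2 = x' ^ 3 - 2 * x')
    (hx : x ≠ x') : ∃ y₃ h₃, pt x y h + pt x' y' h' =
      pt (((y - y') / (x - x')) ^ 2 - x - x') y₃ h₃ := by
  unfold pt
  rw [Point.add_of_X_ne hx]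
  have hns := nonsingular_add ((ns_iff x y).2 h) ((ns_iff x' y').2 h') (fun hxy => hx hxy.left)
  have e : EW.toAffine.addX x x' (EW.toAffine.slope x x' y y') =
      ((y - y') / (x - x')) ^ 2 - x - x' := by
    rw [slope_of_X_ne hx]; simp [addX]
  refine ⟨EW.toAffine.addY x x' y (EW.toAffine.slope x x' y y'), ?_, ?_⟩
  · rw [← e]; exact (ns_iff _ _).1 hns
  · simp only [Point.some.injEq, and_true]; exact e

lemma add_pt_self {x y : ℚ} (h : y ^ 2 = x ^ 3 - 2 * x) (hy : y ≠ 0) :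
    ∃ y₃ h₃, pt x y h + pt x y h = pt ((x ^ 2 + 2) ^ 2 / (4 * y ^ 2)) y₃ h₃ := by
  unfold pt
  have hy' : y ≠ EW.toAffine.negY x y := by
    simp only [negY, EW_a₁, EW_a₃]; intro e; apply hy; linarith
  rw [Point.add_self_of_Y_ne hy']
  have hns := nonsingular_add ((ns_iff x y).2 h) ((ns_iff x y).2 h) (fun hxy => hy' hxy.right)
  have e : EW.toAffine.addX x x (EW.toAffine.slope x x y y) = (x ^ 2 + 2) ^ 2 / (4 * y ^ 2) := by
    rw [slope_of_Y_ne rfl hy']
    simp only [addX, negY, EW_a₁, EW_a₂, EW_a₃, EW_a₄]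
    have : y - (-y - 0 * x - 0) = 2 * y := by ring
    rw [this]
    field_simp
    linear_combination (-32 * x) * h
  refine ⟨EW.toAffine.addY x x y (EW.toAffine.slope x x y y), ?_, ?_⟩
  · rw [← e]; exact (ns_iff _ _).1 hns
  · simp only [Point.some.injEq, and_true]; exact e

lemma add_pt_self_zero {x : ℚ} (h : (0 : ℚ) ^ 2 = x ^ 3 - 2 * x) : pt x 0 h + pt x 0 h = 0 := by
  unfold pt
  exact Point.add_self_of_Y_eq (by simp)

lemma eq_or_neg_of_x {x y y' : ℚ} (h : y ^ 2 = x ^ 3 - 2 * x) (h' : y' ^ 2 = x ^ 3 - 2 * x) :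
    pt x y h = pt x y' h' ∨ pt x y h = -pt x y' h' :=
  Point.X_eq_iff.1 rfl

lemma sym2x_pt {x y x' y' : ℚ} (h : y ^ 2 = x ^ 3 - 2 * x) (h' : y' ^ 2 = x' ^ 3 - 2 * x') :
    (pt x y h).sym2x (pt x' y' h') = ![x * x', x + x', 1] := Point.sym2x_some_some _ _

lemma sym2x_pt_zero {x y : ℚ} (h : y ^ 2 = x ^ 3 - 2 * x) :
    (pt x y h).sym2x 0 = ![x, 1, 0] := Point.sym2x_some_zero _

lemma sym2x_zero_pt {x y : ℚ} (h : y ^ 2 = x ^ 3 - 2 * x) :
    (0 : G).sym2x (pt x y h) = ![x, 1, 0] := Point.sym2x_zero_some _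

lemma eval_addSubMap (s t u : ℚ) : (fun i => (addSubMap EW i).eval ![s, t, u]) =
    ![(s + 2 * u) ^ 2, 2 * t * (s - 2 * u), t ^ 2 - 4 * s * u] := by
  funext i
  fin_cases i <;> simp [addSubMap, b₂, b₄, b₆, b₈] <;> ring

lemma sym2x_double (P : G) :
    ∃ c : ℚ, c ≠ 0 ∧ (P + P).sym2x 0 = c • (fun i => (addSubMap EW i).eval (P.sym2x P)) := by
  rcases G_cases P with rfl | ⟨x, y, h, rfl⟩
  · refine ⟨1, one_ne_zero, ?_⟩
    simp only [add_zero, Point.sym2x_zero_zero, eval_addSubMap]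
    funext i; fin_cases i <;> simp
  · rw [sym2x_pt, eval_addSubMap]
    by_cases hy : y = 0
    · subst hy
      have hx : x * x + 2 ≠ 0 := by nlinarith [mul_self_nonneg x]
      refine ⟨1 / (x * x + 2) ^ 2, by positivity, ?_⟩
      rw [add_pt_self_zero, Point.sym2x_zero_zero]
      funext i; fin_cases i
      · simp; field_simp
      · simp only [Fin.mk_one, Matrix.cons_val_one, Matrix.cons_val_zero, Pi.smul_apply,
          smul_eq_mul]
        have : 2 * (x + x) * (x * x - 2 * 1) = 0 := by linear_combination (-4) * h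
        rw [this]; simp
      · simp; right; ring
    · obtain ⟨y₃, h₃, e⟩ := add_pt_self h hy
      refine ⟨1 / (4 * y ^ 2), by positivity, ?_⟩
      rw [e, sym2x_pt_zero]
      funext i; fin_cases i
      · simp; field_simp
      · simp only [Fin.mk_one, Matrix.cons_val_one, Matrix.cons_val_zero, Pi.smul_apply,
          smul_eq_mul]
        field_simp
        linear_combination (4) * h
      · simp; right; ring

lemma sym2x_add_sub (P Q : G) :
    ∃ c : ℚ, c ≠ 0 ∧ (P + Q).sym2x (P - Q) =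
      c • (fun i => (addSubMap EW i).eval (P.sym2x Q)) := by
  by_cases h1 : P = Q
  · subst h1; simpa using sym2x_double P
  by_cases h2 : P = -Q
  · subst h2
    obtain ⟨c, hc, e⟩ := sym2x_double Q
    refine ⟨c, hc, ?_⟩
    rw [Point.sym2x_neg_left, ← e, neg_add_cancel, Point.sym2x_comm, sub_eq_add_neg, ← neg_add,
      Point.sym2x_neg_left]
  rcases G_cases P with rfl | ⟨x, y, h, rfl⟩
  · rcases G_cases Q with rfl | ⟨x', y', h', rfl⟩
    · exact (h1 rfl).elim
    · refine ⟨1, one_ne_zero, ?_⟩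
      rw [zero_add, zero_sub, Point.sym2x_neg_right, sym2x_pt, sym2x_zero_pt, eval_addSubMap]
      funext i; fin_cases i <;> simp <;> ring
  · rcases G_cases Q with rfl | ⟨x', y', h', rfl⟩
    · refine ⟨1, one_ne_zero, ?_⟩
      rw [add_zero, sub_zero, sym2x_pt, sym2x_pt_zero, eval_addSubMap]
      funext i; fin_cases i <;> simp <;> ring
    · have hx : x ≠ x' := by
        rintro rfl
        rcases eq_or_neg_of_x h h' with e | e
        · exact h1 e
        · exact h2 e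
      have hx' : x - x' ≠ 0 := sub_ne_zero.2 hx
      obtain ⟨y₃, h₃, e₃⟩ := add_pt_ne h h' hx
      obtain ⟨y₄, h₄, e₄⟩ := add_pt_ne h (show (-y') ^ 2 = x' ^ 3 - 2 * x' by rw [neg_sq]; exact h') hx
      refine ⟨1 / (x - x') ^ 2, by positivity, ?_⟩
      rw [sub_eq_add_neg, neg_pt, e₃, e₄, sym2x_pt, sym2x_pt, eval_addSubMap]
      funext i; fin_cases i
      · simp only [Fin.zero_eta, Matrix.cons_val_zero, Pi.smul_apply, smul_eq_mul]
        field_simp
        linear_combination (y ^ 2 - y' ^ 2 + (x ^ 3 - 2 * x) - (x' ^ 3 - 2 * x') -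
            2 * (x + x') * (x - x') ^ 2) * h +
          (-(y ^ 2 - y' ^ 2) - (x ^ 3 - 2 * x) + (x' ^ 3 - 2 * x') -
            2 * (x + x') * (x - x') ^ 2) * h'
      · simp only [Fin.mk_one, Matrix.cons_val_one, Matrix.cons_val_zero, Pi.smul_apply,
          smul_eq_mul]
        field_simp
        linear_combination 2 * h + 2 * h'
      · simp only [Fin.reduceFinMk, Matrix.cons_val, Pi.smul_apply, smul_eq_mul]
        field_simp
        ring

/-- The logarithmic naive height. -/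
noncomputable def ht (P : G) : ℝ := logHeight P.xRep

lemma ht_nonneg (P : G) : 0 ≤ ht P := logHeight_nonneg _

lemma abs_logHeight_sym2x : ∃ C : ℝ, ∀ P Q : G, |logHeight (P.sym2x Q) - (ht P + ht Q)| ≤ C := by
  obtain ⟨C, hC⟩ := abs_logHeight_sym2_sub_le ℚ
  refine ⟨C, fun P Q => ?_⟩
  have e : ∀ R : G, R.xRep = ![R.xRep 0, R.xRep 1] := by
    intro R; funext i; fin_cases i <;> rfl
  have := hC (a := P.xRep 0) (b := P.xRep 1) (c := Q.xRep 0) (d := Q.xRep 1)
    (by rw [← e]; exact P.xRep_ne_zero) (by rw [← e]; exact Q.xRep_ne_zero)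
  rw [← e, ← e] at this
  exact this

theorem parallelogram : ∃ C : ℝ, ∀ P Q : G, |ht (P + Q) + ht (P - Q) - 2 * (ht P + ht Q)| ≤ C := by
  obtain ⟨C₁, h₁⟩ := abs_logHeight_sym2x
  obtain ⟨C₂, h₂⟩ := abs_logHeight_addSubMap_sub_two_mul_logHeight_le EW
  refine ⟨3 * C₁ + C₂, fun P Q => ?_⟩
  obtain ⟨c, hc, e⟩ := sym2x_add_sub P Q
  have a1 := h₁ (P + Q) (P - Q)
  have a2 := h₁ P Q
  have a3 := h₂ (P.sym2x Q)
  rw [e, logHeight_smul_eq_logHeight _ hc] at a1
  rw [abs_le] at *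
  constructor <;> linarith [a1.1, a1.2, a2.1, a2.2, a3.1, a3.2]

/-- Naive height of a rational number. -/
def Hq (x : ℚ) : ℕ := max x.num.natAbs x.den

lemma Hq_pos (x : ℚ) : 0 < Hq x := lt_of_lt_of_le x.den_pos (le_max_right _ _)

lemma ht_pt {x y : ℚ} (h : y ^ 2 = x ^ 3 - 2 * x) : ht (pt x y h) = Real.log (Hq x) := by
  rw [ht, xRep_pt, ← logHeight₁_eq_logHeight, Rat.logHeight₁_eq_log_max]; rfl

instance : Northcott ht where
  finite_le B := by
    have hf := NumberField.finite_setOfPred_logHeight₁_le (K := ℚ) B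
    have : {P : G | ht P ≤ B} ⊆ {0} ∪ ⋃ x ∈ {x : ℚ | logHeight₁ x ≤ B},
        {P : G | P.xRep = ![x, 1]} := by
      intro P hP
      rcases G_cases P with rfl | ⟨x, y, h, rfl⟩
      · simp
      · right
        simp only [Set.mem_iUnion]
        refine ⟨x, ?_, rfl⟩
        rw [Set.mem_ofPred_eq, logHeight₁_eq_logHeight]
        exact hP
    refine Set.Finite.subset (Set.Finite.union (Set.finite_singleton _) (hf.biUnion ?_)) this
    intro x _
    by_cases hx : ∃ Q : G, Q.xRep = ![x, 1]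
    · obtain ⟨Q, hQ⟩ := hx
      refine Set.Finite.subset (Set.toFinite {Q, -Q}) ?_
      intro P hP
      have := Point.eq_or_eq_neg_of_xRep_eq_xRep (P := P) (Q := Q) (by rw [hQ]; exact hP)
      simpa using this
    · convert Set.finite_empty
      ext P
      simp only [Set.mem_ofPred_eq, Set.mem_empty_iff_false, iff_false]
      exact fun hP => hx ⟨P, hP⟩

end Crest.Agent.R323
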