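import Crest.Agent.R323.Curve

/-!
Two-descent on `y² = x³ - 2x`: the group of rational points has rank one.
-/

set_option autoImplicit false

namespace Crest.Agent.R323

open WeierstrassCurve WeierstrassCurve.Affine Height

lemma int_sq_class (m n k : ℤ) (hm : m ≠ 0) (hk : m * n = k ^ 2) (hg : Int.gcd m n ∣ 2 ^ 3) :
    ∃ s : ℤ, m = s ^ 2 ∨ m = -s ^ 2 ∨ m = 2 * s ^ 2 ∨ m = -2 * s ^ 2 := by
  obtain ⟨i, hi, hgi⟩ := (Nat.dvd_prime_pow Nat.prime_two).1 hg
  have hg0 : 0 < Int.gcd m n := Int.gcd_pos_of_ne_zero_left _ hm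
  obtain ⟨m', n', hc, hm', hn'⟩ := Int.exists_gcd_one hg0
  set g : ℤ := (Int.gcd m n : ℤ) with hgdef
  have hg0' : g ≠ 0 := by rw [hgdef]; exact_mod_cast hg0.ne'
  have h1 : g ^ 2 ∣ k ^ 2 := ⟨m' * n', by rw [← hk, hm', hn']; ring⟩
  obtain ⟨k', hk'⟩ := (Int.pow_dvd_pow_iff two_ne_zero).1 h1
  have h2 : m' * n' = k' ^ 2 := by
    have : g ^ 2 * (m' * n') = g ^ 2 * k' ^ 2 := by
      rw [← mul_pow, ← hk', ← hk]; linear_combination (-n) * hm' - (m' * g) * hn'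
    exact mul_left_cancel₀ (pow_ne_zero 2 hg0') this
  obtain ⟨a, ha⟩ := Int.sq_of_gcd_eq_one hc h2
  have hg2 : g = 2 ^ i := by rw [hgdef, hgi]; push_cast; rfl
  rw [hm', hg2]
  interval_cases i
  · rcases ha with ha | ha
    · exact ⟨a, Or.inl (by rw [ha]; ring)⟩
    · exact ⟨a, Or.inr (Or.inl (by rw [ha]; ring))⟩
  · rcases ha with ha | ha
    · exact ⟨a, Or.inr (Or.inr (Or.inl (by rw [ha]; ring)))⟩
    · exact ⟨a, Or.inr (Or.inr (Or.inr (by rw [ha]; ring)))⟩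
  · rcases ha with ha | ha
    · exact ⟨2 * a, Or.inl (by rw [ha]; ring)⟩
    · exact ⟨2 * a, Or.inr (Or.inl (by rw [ha]; ring))⟩
  · rcases ha with ha | ha
    · exact ⟨2 * a, Or.inr (Or.inr (Or.inl (by rw [ha]; ring)))⟩
    · exact ⟨2 * a, Or.inr (Or.inr (Or.inr (by rw [ha]; ring)))⟩

lemma rat_sq_class (b : ℤ) (hb : b ∣ 8) (x y : ℚ) (hx : x ≠ 0) (h : y ^ 2 = x ^ 3 + b * x) :
    ∃ s : ℚ, s ≠ 0 ∧ (x = s ^ 2 ∨ x = -s ^ 2 ∨ x = 2 * s ^ 2 ∨ x = -2 * s ^ 2) := by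
  set a : ℤ := x.num with ha
  set d : ℤ := (x.den : ℤ) with hd
  have hd0 : (d : ℚ) ≠ 0 := by rw [hd]; exact_mod_cast x.den_ne_zero
  have hxa : x = a / d := by rw [ha, hd]; exact_mod_cast (Rat.num_div_den x).symm
  have ha0 : a ≠ 0 := by rw [ha]; exact Rat.num_ne_zero.2 hx
  have hcop : IsCoprime a d := by
    rw [Int.isCoprime_iff_gcd_eq_one]; exact x.reduced
  have hsq : IsSquare (((a * d) * (a ^ 2 + b * d ^ 2) : ℤ) : ℚ) := by
    refine ⟨y * d ^ 2, ?_⟩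
    push_cast
    have : (a : ℚ) = x * d := by rw [hxa]; field_simp
    rw [this]
    linear_combination (-(d : ℚ) ^ 4) * h
  obtain ⟨k, hk⟩ := Rat.isSquare_intCast_iff.1 hsq
  have hg : Int.gcd (a * d) (a ^ 2 + b * d ^ 2) ∣ 2 ^ 3 := by
    set g : ℤ := (Int.gcd (a * d) (a ^ 2 + b * d ^ 2) : ℤ) with hg
    have g1 : g ∣ a * d := Int.gcd_dvd_left _ _
    have g2 : g ∣ a ^ 2 + b * d ^ 2 := Int.gcd_dvd_right _ _
    have c1 : IsCoprime (a ^ 2 + b * d ^ 2) d := by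
      have : a ^ 2 + b * d ^ 2 = a ^ 2 + d * (b * d) := by ring
      rw [this]
      exact (hcop.pow_left).add_mul_left_left _
    have c2 : IsCoprime g d := c1.of_isCoprime_of_dvd_left g2
    have g3 : g ∣ a := c2.dvd_of_dvd_mul_right g1
    have g4 : g ∣ b * d ^ 2 := by
      have := dvd_sub g2 (g3.trans (dvd_pow_self a two_ne_zero))
      simpa using this
    have g5 : g ∣ b := (c2.pow_right).dvd_of_dvd_mul_right g4
    have g6 : g ∣ ((2 ^ 3 : ℕ) : ℤ) := g5.trans (by simpa using hb)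
    exact Int.natCast_dvd_natCast.1 g6
  have hd0' : d ≠ 0 := by exact_mod_cast hd0
  obtain ⟨s, hs⟩ := int_sq_class (a * d) (a ^ 2 + b * d ^ 2) k (mul_ne_zero ha0 hd0')
    (by rw [hk]; ring) hg
  have hx2 : x = ((a * d : ℤ) : ℚ) / d ^ 2 := by rw [hxa]; push_cast; field_simp
  have hs0 : s ≠ 0 := by
    rintro rfl
    have : a * d = 0 := by rcases hs with hs | hs | hs | hs <;> simpa using hs
    exact mul_ne_zero ha0 hd0' this
  refine ⟨s / d, div_ne_zero (by exact_mod_cast hs0) hd0, ?_⟩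
  rcases hs with hs | hs | hs | hs <;> rw [hs] at hx2
  · left; rw [hx2]; push_cast; ring
  · right; left; rw [hx2]; push_cast; ring
  · right; right; left; rw [hx2]; push_cast; ring
  · right; right; right; rw [hx2]; push_cast; ring

lemma exists_half {s y : ℚ} (hs : s ≠ 0) (h : y ^ 2 = (s ^ 2) ^ 3 - 2 * s ^ 2) :
    ∃ R : G, pt (s ^ 2) y h = R + R := by
  -- a point on the isogenous curve with square first coordinate
  have key : ∃ r : ℚ, r ≠ 0 ∧ r ^ 4 + 8 = 4 * s ^ 2 * r ^ 2 := by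
    set X : ℚ := 2 * (s ^ 2 + y / s) with hX
    have hX1 : X ^ 2 + 8 = 4 * s ^ 2 * X := by
      rw [hX]; field_simp; linear_combination (4) * h
    have hX0 : 0 < X := by
      by_contra hneg
      push Not at hneg
      have : 4 * s ^ 2 * X ≤ 0 := mul_nonpos_of_nonneg_of_nonpos (by positivity) hneg
      nlinarith [sq_nonneg X]
    obtain ⟨r, hr0, hr⟩ := rat_sq_class 8 (dvd_refl _) X (2 * s * X) hX0.ne'
      (by push_cast; linear_combination (-X) * hX1)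
    rcases hr with hr | hr | hr | hr
    · exact ⟨r, hr0, by rw [hr] at hX1; linear_combination hX1⟩
    · exfalso; have := sq_pos_of_ne_zero hr0; nlinarith
    · refine ⟨2 / r, by positivity, ?_⟩
      rw [hr] at hX1
      field_simp
      linear_combination (2) * hX1
    · exfalso; have := sq_pos_of_ne_zero hr0; nlinarith
  obtain ⟨r, hr0, hr⟩ := key
  set u : ℚ := r * (r + 2 * s) / 2 with hu
  have hu1 : u ^ 2 - r ^ 2 * u - 2 = 0 := by
    rw [hu]; linear_combination (-1 / 4) * hr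
  have hu0 : u ≠ 0 := by
    intro e; rw [e] at hu1; norm_num at hu1
  have hw : (r * u) ^ 2 = u ^ 3 - 2 * u := by linear_combination (-u) * hu1
  obtain ⟨y₃, h₃, e⟩ := add_pt_self hw (mul_ne_zero hr0 hu0)
  have hx : (u ^ 2 + 2) ^ 2 / (4 * (r * u) ^ 2) = s ^ 2 := by
    have : u ^ 2 + 2 = 2 * r * s * u := by
      have : 2 * u = r ^ 2 + 2 * r * s := by rw [hu]; ring
      linear_combination (-1) * hu1 + u * this
    rw [this]; field_simp; ring
  have h₃' : y₃ ^ 2 = (s ^ 2) ^ 3 - 2 * s ^ 2 := by rw [← hx]; exact h₃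
  have e' : pt u (r * u) hw + pt u (r * u) hw = pt (s ^ 2) y₃ h₃' := by
    rw [e, pt_inj]; exact ⟨hx, rfl⟩
  rcases eq_or_neg_of_x h h₃' with e2 | e2
  · exact ⟨_, by rw [e2, e']⟩
  · exact ⟨-pt u (r * u) hw, by rw [e2, ← e', neg_add]⟩

/-- The point `(-1, 1)`. -/
def P0 : G := pt (-1) 1 (by norm_num)
/-- The point `(0, 0)`. -/
def T0 : G := pt 0 0 (by norm_num)

lemma T0_add_T0 : T0 + T0 = 0 := add_pt_self_zero _

lemma eq_T0 {y : ℚ} (h : y ^ 2 = (0 : ℚ) ^ 3 - 2 * 0) : pt 0 y h = T0 := by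
  have : y = 0 := by simpa using h
  subst this; rfl

/-- membership in `⟨P0, T0⟩ + 2G`. -/
def Good (Q : G) : Prop := ∃ (a b : ℤ) (R : G), Q = a • P0 + b • T0 + (R + R)

lemma good_of_add {Q : G} (a b : ℤ) (h : Good (Q + (a • P0 + b • T0))) : Good Q := by
  obtain ⟨a', b', R, e⟩ := h
  refine ⟨a' - a, b' - b, R, ?_⟩
  rw [eq_sub_of_add_eq e, sub_smul, sub_smul]; abel

lemma good_sq {x y : ℚ} (h : y ^ 2 = x ^ 3 - 2 * x) (s : ℚ) (hx : x = s ^ 2) :
    Good (pt x y h) := by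
  subst hx
  by_cases hs : s = 0
  · subst hs
    refine ⟨0, 1, 0, ?_⟩
    have : y = 0 := by simpa using h
    subst this
    simp [T0]
  · obtain ⟨R, hR⟩ := exists_half hs h
    exact ⟨0, 0, R, by simp [hR]⟩

lemma good_neg_sq {x y : ℚ} (h : y ^ 2 = x ^ 3 - 2 * x) (s : ℚ) (hs : s ≠ 0) (hx : x = -s ^ 2) :
    Good (pt x y h) := by
  by_cases h1 : x = -1
  · subst h1
    rcases eq_or_neg_of_x h (show (1 : ℚ) ^ 2 = (-1) ^ 3 - 2 * (-1) by norm_num) with e | e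
    · exact ⟨1, 0, 0, by rw [e]; simp [P0]⟩
    · exact ⟨-1, 0, 0, by rw [e]; simp [P0]⟩
  · apply good_of_add 1 0
    obtain ⟨y₃, h₃, e⟩ := add_pt_ne h (show (1 : ℚ) ^ 2 = (-1) ^ 3 - 2 * (-1) by norm_num) h1
    simp only [one_zsmul, zero_zsmul, add_zero, P0]
    rw [e]
    refine good_sq _ ((y + x) / ((x + 1) * s)) ?_
    have h2 : x + 1 ≠ 0 := fun e => h1 (by linarith)
    have h3 : x - -1 ≠ 0 := by simpa using h2
    have h4 : s ^ 2 = -x := by rw [hx]; ring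
    have h5 : x ≠ 0 := by rw [hx]; exact neg_ne_zero.2 (pow_ne_zero 2 hs)
    rw [div_pow (y + x), mul_pow, h4, sub_neg_eq_add x 1]
    field_simp
    linear_combination (x + 1) * h

lemma add_T0 {x y : ℚ} (h : y ^ 2 = x ^ 3 - 2 * x) (hx : x ≠ 0) :
    ∃ y₃ h₃, pt x y h + T0 = pt (-2 / x) y₃ h₃ := by
  obtain ⟨y₃, h₃, e⟩ := add_pt_ne h (show (0 : ℚ) ^ 2 = 0 ^ 3 - 2 * 0 by norm_num) hx
  have : ((y - 0) / (x - 0)) ^ 2 - x - 0 = -2 / x := by
    simp only [sub_zero]; field_simp; linear_combination h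
  refine ⟨y₃, by rw [← this]; exact h₃, ?_⟩
  rw [T0, e, pt_inj]; exact ⟨this, rfl⟩

theorem good_all (Q : G) : Good Q := by
  rcases G_cases Q with rfl | ⟨x, y, h, rfl⟩
  · exact ⟨0, 0, 0, by simp⟩
  by_cases hx : x = 0
  · exact good_sq h 0 (by simp [hx])
  obtain ⟨s, hs, hc⟩ := rat_sq_class (-2) (by norm_num) x y hx (by push_cast; linear_combination h)
  obtain ⟨y₃, h₃, e⟩ := add_T0 h hx
  rcases hc with hc | hc | hc | hc
  · exact good_sq h s hc
  · exact good_neg_sq h s hs hc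
  · apply good_of_add 0 1
    simp only [one_zsmul, zero_zsmul, zero_add]
    rw [e]
    exact good_neg_sq _ (1 / s) (by positivity) (by rw [hc]; field_simp)
  · apply good_of_add 0 1
    simp only [one_zsmul, zero_zsmul, zero_add]
    rw [e]
    exact good_sq _ (1 / s) (by rw [hc]; field_simp)

lemma finiteIndex_two : (nsmulAddMonoidHom (α := G) 2).range.FiniteIndex := by
  rw [AddSubgroup.finiteIndex_iff_finite_quotient]
  let f : Fin 2 × Fin 2 → G ⧸ (nsmulAddMonoidHom (α := G) 2).range :=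
    fun p => QuotientAddGroup.mk (((p.1 : ℕ) : ℤ) • P0 + ((p.2 : ℕ) : ℤ) • T0)
  refine Finite.of_surjective f ?_
  intro q
  obtain ⟨Q, rfl⟩ := QuotientAddGroup.mk_surjective q
  obtain ⟨a, b, R, e⟩ := good_all Q
  refine ⟨(⟨(a % 2).toNat, by omega⟩, ⟨(b % 2).toNat, by omega⟩), ?_⟩
  simp only [f]
  rw [QuotientAddGroup.eq]
  refine ⟨(a / 2) • P0 + (b / 2) • T0 + R, ?_⟩
  have ha : (((a % 2).toNat : ℕ) : ℤ) = a - 2 * (a / 2) := by omega
  have hb : (((b % 2).toNat : ℕ) : ℤ) = b - 2 * (b / 2) := by omega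
  simp only [nsmulAddMonoidHom_apply, ha, hb, e]
  module

instance G_fg : AddGroup.FG G := by
  obtain ⟨C, hC⟩ := parallelogram
  exact AddCommGroup.fg_of_descent' finiteIndex_two ht_nonneg hC

/-- Every point has a nonzero multiple in `ℤ P0`. -/
lemma exists_smul_mem : ∃ r : ℤ, r ≠ 0 ∧ ∀ Q : G, ∃ a : ℤ, r • Q = a • P0 := by
  let N : Submodule ℤ G := Submodule.span ℤ {P0, T0}
  have : Module.Finite ℤ G := Module.Finite.iff_addGroup_fg.2 G_fg
  obtain ⟨r, hr, hr'⟩ := Submodule.exists_sub_one_mem_and_smul_eq_zero_of_fg_of_le_smul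
    (Ideal.span {(2 : ℤ)}) (⊤ : Submodule ℤ (G ⧸ N)) Module.Finite.fg_top (by
      intro q _
      obtain ⟨Q, rfl⟩ := Submodule.Quotient.mk_surjective N q
      obtain ⟨a, b, R, e⟩ := good_all Q
      have : (Submodule.Quotient.mk Q : G ⧸ N) = (2 : ℤ) • Submodule.Quotient.mk R := by
        rw [← Submodule.Quotient.mk_smul, Submodule.Quotient.eq]
        have : Q - (2 : ℤ) • R = a • P0 + b • T0 := by rw [e]; module
        rw [this]
        exact Submodule.mem_span_pair.2 ⟨a, b, rfl⟩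
      rw [this]
      exact Submodule.smul_mem_smul (Ideal.mem_span_singleton_self _) Submodule.mem_top)
  have hr0 : r ≠ 0 := by
    rintro rfl
    rw [Ideal.mem_span_singleton] at hr
    omega
  refine ⟨2 * r, by omega, fun Q => ?_⟩
  have h1 := hr' (Submodule.Quotient.mk Q) Submodule.mem_top
  rw [← Submodule.Quotient.mk_smul, Submodule.Quotient.mk_eq_zero] at h1
  obtain ⟨a, b, e⟩ := Submodule.mem_span_pair.1 h1
  refine ⟨2 * a, ?_⟩
  have hT : (2 : ℤ) • T0 = 0 := by rw [two_zsmul]; exact T0_add_T0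
  have : (2 * r) • Q = (2 * a) • P0 + b • ((2 : ℤ) • T0) := by
    rw [mul_zsmul, ← e]; module
  rw [this, hT, zsmul_zero, add_zero]

lemma finite_quot (m : ℤ) (hm : m ≠ 0) : Finite (G ⧸ AddSubgroup.zmultiples (m • P0)) := by
  obtain ⟨r, hr, h⟩ := exists_smul_mem
  refine AddCommGroup.finite_of_fg_isAddTorsion _ ?_
  intro q
  obtain ⟨Q, rfl⟩ := QuotientAddGroup.mk_surjective q
  rw [isOfFinAddOrder_iff_zsmul_eq_zero]
  refine ⟨m * r, mul_ne_zero hm hr, ?_⟩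
  rw [← QuotientAddGroup.mk_zsmul, QuotientAddGroup.eq_zero_iff]
  obtain ⟨a, ha⟩ := h Q
  exact ⟨a, by simp only; rw [mul_smul, ha, smul_comm]⟩

lemma two_pow_smul_P0 (k : ℕ) : ∃ x y h, (2 ^ (k + 1) : ℕ) • P0 = pt x y h ∧
    padicValRat 2 x = -2 * ((k : ℤ) + 1) := by
  have : Fact (Nat.Prime 2) := ⟨Nat.prime_two⟩
  have v2 : padicValRat 2 (2 : ℚ) = 1 := by
    exact_mod_cast padicValRat.self (p := 2) (by norm_num)
  have v4 : padicValRat 2 (4 : ℚ) = 2 := by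
    rw [show (4 : ℚ) = 2 ^ 2 by norm_num, padicValRat.pow, v2]; norm_num
  induction k with
  | zero =>
    obtain ⟨y₃, h₃, e⟩ := add_pt_self (show (1 : ℚ) ^ 2 = (-1) ^ 3 - 2 * (-1) by norm_num)
      one_ne_zero
    refine ⟨_, y₃, h₃, by rw [← e]; simp [P0, two_smul], ?_⟩
    have v3 : padicValRat 2 (3 : ℚ) = 0 := by
      have : padicValRat 2 ((3 : ℕ) : ℚ) = 0 := by
        rw [padicValRat.of_nat]; norm_num [padicValNat.eq_zero_of_not_dvd]
      exact_mod_cast this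
    rw [show ((-1 : ℚ) ^ 2 + 2) ^ 2 / (4 * 1 ^ 2) = 3 ^ 2 / 4 by norm_num,
      padicValRat.div (by norm_num) (by norm_num), padicValRat.pow, v3, v4]
    norm_num
  | succ k ih =>
    obtain ⟨x, y, h, e, hv⟩ := ih
    have hx : x ≠ 0 := by
      rintro rfl
      simp at hv; omega
    have hx2 : padicValRat 2 (x ^ 2) = -4 * ((k : ℤ) + 1) := by
      rw [padicValRat.pow, hv]; push_cast; ring
    have a1 : x ^ 2 + 2 ≠ 0 := by positivity
    have a2 : x ^ 2 + -2 ≠ 0 := by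
      intro e
      have : x ^ 2 = 2 := by linarith
      rw [this, v2] at hx2; omega
    have b1 : padicValRat 2 (x ^ 2 + 2) = -4 * ((k : ℤ) + 1) := by
      rw [padicValRat.add_eq_of_lt a1 (pow_ne_zero 2 hx) (by norm_num) (by rw [hx2, v2]; omega), hx2]
    have b2 : padicValRat 2 (x ^ 2 + -2) = -4 * ((k : ℤ) + 1) := by
      rw [padicValRat.add_eq_of_lt a2 (pow_ne_zero 2 hx) (by norm_num)
        (by rw [hx2, padicValRat.neg, v2]; omega), hx2]
    have hy2 : y ^ 2 = x * (x ^ 2 + -2) := by rw [h]; ring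
    have hy : y ≠ 0 := by
      rintro rfl
      exact mul_ne_zero hx a2 (by rw [← hy2]; norm_num)
    obtain ⟨y₃, h₃, e'⟩ := add_pt_self h hy
    refine ⟨_, y₃, h₃, by rw [← e', ← e, pow_succ, mul_comm, mul_smul, two_smul], ?_⟩
    rw [padicValRat.div (pow_ne_zero 2 a1) (by positivity), padicValRat.pow, b1,
      padicValRat.mul (by norm_num) (by positivity), v4, hy2, padicValRat.mul hx a2, hv, b2]
    push_cast; ring

lemma exists_big_multiple (B : ℝ) : ∃ m : ℤ, m ≠ 0 ∧ B < ht (m • P0) := by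
  by_contra hcon
  push Not at hcon
  have hinj : Function.Injective (fun k : ℕ => (2 ^ (k + 1) : ℕ) • P0) := by
    intro k l hkl
    obtain ⟨x, y, h, e, hv⟩ := two_pow_smul_P0 k
    obtain ⟨x', y', h', e', hv'⟩ := two_pow_smul_P0 l
    simp only [e, e', pt_inj] at hkl
    rw [hkl.1, hv'] at hv
    omega
  refine Set.infinite_range_of_injective hinj
    ((Northcott.finite_le (h := ht) B).subset ?_)
  rintro _ ⟨k, rfl⟩
  have := hcon ((2 ^ (k + 1) : ℕ) : ℤ) (by positivity)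
  rwa [natCast_zsmul] at this

/-- The main output of the elliptic curve part. -/
theorem curve_main : ∃ (x₀ y₀ : ℚ) (h₀ : y₀ ^ 2 = x₀ ^ 3 - 2 * x₀) (K : ℕ),
    Finite (G ⧸ AddSubgroup.zmultiples (pt x₀ y₀ h₀)) ∧
    ∀ Q : G, 1 ≤ ht (Q + pt x₀ y₀ h₀) + ht (Q - pt x₀ y₀ h₀) - 2 * ht Q ∧
      ht (Q + pt x₀ y₀ h₀) + ht (Q - pt x₀ y₀ h₀) - 2 * ht Q ≤ K := by
  obtain ⟨C, hC⟩ := parallelogram
  obtain ⟨m, hm, hB⟩ := exists_big_multiple (C + 1)
  have hC0 : 0 ≤ C := le_trans (abs_nonneg _) (hC 0 0)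
  obtain ⟨K, hK⟩ := exists_nat_ge (2 * ht (m • P0) + C)
  have key : ∀ Q : G, 1 ≤ ht (Q + m • P0) + ht (Q - m • P0) - 2 * ht Q ∧
      ht (Q + m • P0) + ht (Q - m • P0) - 2 * ht Q ≤ K := by
    intro Q
    have := abs_le.1 (hC Q (m • P0))
    constructor <;> linarith [this.1, this.2]
  rcases G_cases (m • P0) with e | ⟨x, y, h, e⟩
  · have := (key 0).1
    rw [e] at this
    simp only [add_zero, sub_zero] at this
    linarith
  · exact ⟨x, y, h, K, e ▸ finite_quot m hm, e ▸ key⟩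

end Crest.Agent.R323
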