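import Crest.Agent.R323.Partrec

/-!
From `SF` to an integer polynomial.
-/

set_option autoImplicit false

namespace Crest.Agent.R323

lemma NP.exists_mv {X : Type} [Enc X] {g : X → ℕ} (hg : NP g) :
    ∃ P : MvPolynomial (Enc.ι X) ℤ, ∀ x : X,
      MvPolynomial.eval (fun i => (Enc.e x i : ℤ)) P = g x := by
  induction hg with
  | coord i => exact ⟨MvPolynomial.X i, fun x => by simp⟩
  | const c => exact ⟨MvPolynomial.C c, fun x => by simp⟩
  | add _ _ ih1 ih2 =>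
    obtain ⟨P, hP⟩ := ih1
    obtain ⟨Q, hQ⟩ := ih2
    exact ⟨P + Q, fun x => by simp [hP, hQ]⟩
  | mul _ _ ih1 ih2 =>
    obtain ⟨P, hP⟩ := ih1
    obtain ⟨Q, hQ⟩ := ih2
    exact ⟨P * Q, fun x => by simp [hP, hQ]⟩

/-- Single-fold Diophantine representation with an explicit polynomial. -/
theorem SF.exists_mv {n : ℕ} {S : (Fin n → ℕ) → Prop} (hS : SF S) :
    ∃ m : ℕ, 1 ≤ m ∧ ∃ P : MvPolynomial (Fin n ⊕ Fin m) ℤ, ∀ a : Fin n → ℕ,
      (S a → ∃! w : Fin m → ℕ,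
        MvPolynomial.eval (Sum.elim (fun i => (a i : ℤ)) (fun j => (w j : ℤ))) P = 0) ∧
      (¬ S a → ∀ w : Fin m → ℕ,
        MvPolynomial.eval (Sum.elim (fun i => (a i : ℤ)) (fun j => (w j : ℤ))) P ≠ 0) := by
  obtain ⟨W, _, g₁, g₂, h1, h2, h3, h4⟩ := hS
  have := Fintype.ofFinite (Enc.ι W)
  set k := Fintype.card (Enc.ι W)
  let σ : Enc.ι W ≃ Fin k := Fintype.equivFin _
  let dec : (Fin (k + 1) → ℕ) → W := fun w => Enc.e.symm (fun i => w (σ i).succ)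
  obtain ⟨P₁, hP₁⟩ := h1.np.exists_mv
  obtain ⟨P₂, hP₂⟩ := h2.np.exists_mv
  let ρ : Enc.ι ((Fin n → ℕ) × W) → Fin n ⊕ Fin (k + 1) := Sum.map id (fun i => (σ i).succ)
  have hev : ∀ (a : Fin n → ℕ) (w : Fin (k + 1) → ℕ) (P : MvPolynomial (Enc.ι ((Fin n → ℕ) × W)) ℤ),
      MvPolynomial.eval (Sum.elim (fun i => (a i : ℤ)) (fun j => (w j : ℤ)))
        (MvPolynomial.rename ρ P) =
      MvPolynomial.eval (fun i => (Enc.e (a, dec w) i : ℤ)) P := by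
    intro a w P
    rw [MvPolynomial.eval_rename]
    congr 2
    funext i
    rcases i with i | i
    · rfl
    · change ((w (σ i).succ : ℕ) : ℤ) = ((Enc.e (dec w) i : ℕ) : ℤ)
      simp [dec]
  have key : ∀ (a : Fin n → ℕ) (w : Fin (k + 1) → ℕ),
      MvPolynomial.eval (Sum.elim (fun i => (a i : ℤ)) (fun j => (w j : ℤ)))
        ((MvPolynomial.rename ρ P₁ - MvPolynomial.rename ρ P₂) ^ 2 +
          MvPolynomial.X (Sum.inr 0) ^ 2) = 0 ↔ g₁ (a, dec w) = g₂ (a, dec w) ∧ w 0 = 0 := by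
    intro a w
    simp only [map_add, map_pow, map_sub, hev, hP₁, hP₂, MvPolynomial.eval_X, Sum.elim_inr]
    constructor
    · intro h
      have e1 : ((g₁ (a, dec w) : ℤ) - g₂ (a, dec w)) ^ 2 = 0 := by
        nlinarith [sq_nonneg ((g₁ (a, dec w) : ℤ) - g₂ (a, dec w)), sq_nonneg (w 0 : ℤ)]
      have e2 : ((w 0 : ℤ)) ^ 2 = 0 := by
        nlinarith [sq_nonneg ((g₁ (a, dec w) : ℤ) - g₂ (a, dec w)), sq_nonneg (w 0 : ℤ)]
      have e3 := pow_eq_zero_iff (two_ne_zero) |>.1 e1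
      have e4 := pow_eq_zero_iff (two_ne_zero) |>.1 e2
      constructor <;> omega
    · rintro ⟨h, h'⟩
      simp [h, h']
  refine ⟨k + 1, by omega, (MvPolynomial.rename ρ P₁ - MvPolynomial.rename ρ P₂) ^ 2 +
          MvPolynomial.X (Sum.inr 0) ^ 2, fun a => ⟨fun ha => ?_, fun ha w hw => ?_⟩⟩
  · obtain ⟨w, hw⟩ := (h3 a).1 ha
    have hd : dec (Fin.cons 0 fun j => Enc.e w (σ.symm j)) = w := by
      simp [dec]
    refine ⟨Fin.cons 0 fun j => Enc.e w (σ.symm j), (key _ _).2 ⟨by rw [hd]; exact hw, rfl⟩,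
      fun v hv => ?_⟩
    obtain ⟨hv1, hv2⟩ := (key _ _).1 hv
    have := h4 _ _ _ hv1 hw
    funext j
    refine Fin.cases hv2 (fun j => ?_) j
    simp [← this, dec]
  · exact ha ((h3 a).2 ⟨_, ((key _ _).1 hw).1⟩)

end Crest.Agent.R323
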