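import Crest.Agent.R323.Bounded

/-!
Graphs of partial recursive functions are single-fold Diophantine.
-/

set_option autoImplicit false

namespace Crest.Agent.R323

open Finset

lemma mem_rec_iff (f : Part ℕ) (g : ℕ → ℕ → Part ℕ) (n y : ℕ) :
    y ∈ (Nat.rec f (fun i IH => IH.bind (g i)) n : Part ℕ) ↔
      ∃ s : ℕ → ℕ, s 0 ∈ f ∧ (∀ i < n, s (i + 1) ∈ g i (s i)) ∧ s n = y := by
  induction n generalizing y with
  | zero =>
    constructor
    · intro h; exact ⟨fun _ => y, h, by simp, rfl⟩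
    · rintro ⟨s, h, -, rfl⟩; exact h
  | succ n ih =>
    simp only [Part.mem_bind_iff, ih]
    constructor
    · rintro ⟨a, ⟨s, h1, h2, rfl⟩, h3⟩
      refine ⟨fun i => if i ≤ n then s i else y, by simpa using h1, fun i hi => ?_, by simp⟩
      by_cases hin : i = n
      · subst hin; simpa using h3
      · have : i + 1 ≤ n := by omega
        simp only [this, show i ≤ n by omega, if_true]
        exact h2 i (by omega)
    · rintro ⟨s, h1, h2, rfl⟩
      exact ⟨s n, ⟨s, h1, fun i hi => h2 i (by omega), rfl⟩, h2 n (by omega)⟩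

lemma seq_unique {f : Part ℕ} {g : ℕ → ℕ → Part ℕ} {n : ℕ} {s t : ℕ → ℕ} (h1 : s 0 ∈ f)
    (h2 : ∀ i < n, s (i + 1) ∈ g i (s i)) (h3 : t 0 ∈ f) (h4 : ∀ i < n, t (i + 1) ∈ g i (t i)) :
    ∀ i ≤ n, s i = t i := by
  intro i
  induction i with
  | zero => exact fun _ => Part.mem_unique h1 h3
  | succ i ih =>
    intro hi
    have := h2 i (by omega)
    rw [ih (by omega)] at this
    exact Part.mem_unique this (h4 i (by omega))

lemma sf_prec {f g : ℕ →. ℕ} (hf : SF (fun p : ℕ × ℕ => p.2 ∈ f p.1))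
    (hg : SF (fun p : ℕ × ℕ => p.2 ∈ g p.1)) :
    SF (fun p : (ℕ × ℕ) × ℕ => p.2 ∈ (Nat.rec (f p.1.1)
      (fun i IH => IH.bind (fun z => g (Nat.pair p.1.1 (Nat.pair i z)))) p.1.2 : Part ℕ)) := by
  let B : ℕ → ℕ → ℕ := fun n M => (n + 1) * M + M + 2
  let Φ : (ℕ × ℕ) × ℕ → ℕ × ℕ → Prop := fun p q =>
    q.2 < B p.1.2 q.1 ^ (p.1.2 + 1) ∧ q.2 % (B p.1.2 q.1 - 1) = q.1 ∧
    digit (B p.1.2 q.1) q.2 p.1.2 = p.2 ∧
    (∀ i < p.1.2 + 1, digit (B p.1.2 q.1) q.2 i ≤ q.1) ∧
    digit (B p.1.2 q.1) q.2 0 ∈ f p.1.1 ∧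
    (∀ i < p.1.2, digit (B p.1.2 q.1) q.2 (i + 1) ∈
      g (Nat.pair p.1.1 (Nat.pair i (digit (B p.1.2 q.1) q.2 i))))
  have hΦ : SF (fun r : ((ℕ × ℕ) × ℕ) × (ℕ × ℕ) => Φ r.1 r.2) := by
    simp only [Φ, B]
    refine SF.and (by sf) (SF.and (by sf) (SF.and (by sf) (SF.and ?_ (SF.and ?_ ?_))))
    · exact SF.ball (by sf) (by fun_prop)
    · exact SF.comp₂ (R := fun a b => b ∈ f a) hf (by fun_prop) (by fun_prop)
    · exact SF.ball (SF.comp₂ (R := fun a b => b ∈ g a) hg (by fun_prop) (by fun_prop))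
        (by fun_prop)
  have key : ∀ n M (s : ℕ → ℕ), (∀ i < n + 1, s i ≤ M) →
      code (B n M) (n + 1) s % (B n M - 1) = ∑ i ∈ range (n + 1), s i := by
    intro n M s hs
    have : ∑ i ∈ range (n + 1), s i ≤ (n + 1) * M := by
      have := sum_le_card_nsmul (range (n + 1)) s M (fun i hi => hs i (mem_range.1 hi))
      simpa using this
    have hB : B n M = (n + 1) * M + M + 2 := rfl
    rw [code_mod_sub (B := 1) (by omega), code_one]
    rw [code_one]; omega
  refine (SF.ex hΦ ?_).congr ?_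
  · rintro ⟨⟨a, n⟩, y⟩ ⟨M, c⟩ ⟨M', c'⟩ ⟨a1, a2, -, a4, a5, a6⟩ ⟨b1, b2, -, b4, b5, b6⟩
    simp only at a1 a2 a4 a5 a6 b1 b2 b4 b5 b6
    have hu := seq_unique (g := fun i z => g (Nat.pair a (Nat.pair i z))) a5 a6 b5 b6
    have e1 : c = code (B n M) (n + 1) (digit (B n M) c) := by
      rw [code_digit, Nat.mod_eq_of_lt a1]
    have e2 : c' = code (B n M') (n + 1) (digit (B n M') c') := by
      rw [code_digit, Nat.mod_eq_of_lt b1]
    have e3 := key n M _ a4
    have e4 := key n M' _ b4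
    rw [← e1, a2] at e3
    rw [← e2, b2] at e4
    have hM : M = M' := by
      rw [e3, e4]
      exact sum_congr rfl fun i hi => hu i (by have := mem_range.1 hi; omega)
    subst hM
    rw [e1, e2, code_congr fun i hi => hu i (by omega)]
  · rintro ⟨⟨a, n⟩, y⟩
    simp only
    rw [mem_rec_iff]
    constructor
    · rintro ⟨⟨M, c⟩, -, -, a3, -, a5, a6⟩
      exact ⟨_, a5, a6, a3⟩
    · rintro ⟨s, h1, h2, h3⟩
      set M := ∑ i ∈ range (n + 1), s i with hM
      have hs : ∀ i < n + 1, s i ≤ M := fun i hi =>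
        single_le_sum (f := s) (fun _ _ => Nat.zero_le _) (mem_range.2 hi)
      have hB : B n M = (n + 1) * M + M + 2 := rfl
      have hs' : ∀ i < n + 1, s i < B n M := fun i hi => by have := hs i hi; omega
      refine ⟨(M, code (B n M) (n + 1) s), code_lt hs', key n M s hs, ?_, ?_, ?_, ?_⟩
      · simp only; rw [digit_code hs' (by omega), h3]
      · intro i hi; simp only; rw [digit_code hs' hi]; exact hs i hi
      · simp only; rw [digit_code hs' (by omega)]; exact h1
      · intro i hi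
        simp only at hi ⊢
        rw [digit_code hs' (by omega), digit_code hs' (by omega)]; exact h2 i hi

theorem sf_partrec {f : ℕ →. ℕ} (hf : Nat.Partrec f) : SF (fun p : ℕ × ℕ => p.2 ∈ f p.1) := by
  induction hf with
  | zero => exact (show SF (fun p : ℕ × ℕ => p.2 = 0) by sf).congr fun p => by simp [Part.mem_some_iff, pure, PFun.pure]
  | succ => exact (show SF (fun p : ℕ × ℕ => p.2 = p.1 + 1) by sf).congr fun p => by simp
  | left => exact (show SF (fun p : ℕ × ℕ => p.2 = p.1.unpair.1) by sf).congr fun p => by simp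
  | right => exact (show SF (fun p : ℕ × ℕ => p.2 = p.1.unpair.2) by sf).congr fun p => by simp
  | @pair f g _ _ ihf ihg =>
    have h1 : SF (fun p : ℕ × ℕ => p.2.unpair.1 ∈ f p.1) :=
      SF.comp₂ (R := fun a b => b ∈ f a) ihf (by fun_prop) (by fun_prop)
    have h2 : SF (fun p : ℕ × ℕ => p.2.unpair.2 ∈ g p.1) :=
      SF.comp₂ (R := fun a b => b ∈ g a) ihg (by fun_prop) (by fun_prop)
    refine (h1.and h2).congr fun p => ?_
    simp only [Seq.seq, Part.map_eq_map, Part.bind_eq_bind, Part.mem_bind_iff, Part.mem_map_iff]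
    constructor
    · rintro ⟨a, b⟩
      exact ⟨_, ⟨_, a, rfl⟩, _, b, by simp⟩
    · rintro ⟨_, ⟨a, ha, rfl⟩, b, hb, e⟩
      rw [← e]; simpa using ⟨ha, hb⟩
  | @comp f g _ _ ihf ihg =>
    refine (SF.ex (S := fun (p : ℕ × ℕ) (z : ℕ) => z ∈ g p.1 ∧ p.2 ∈ f z)
      (SF.and (SF.comp₂ (R := fun a b => b ∈ g a) ihg (by fun_prop) (by fun_prop))
        (SF.comp₂ (R := fun a b => b ∈ f a) ihf (by fun_prop) (by fun_prop))) ?_).congr fun p => ?_
    · rintro p z z' ⟨a, -⟩ ⟨b, -⟩
      exact Part.mem_unique a b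
    · exact Part.mem_bind_iff.symm
  | @prec f g _ _ ihf ihg =>
    exact (sf_prec ihf ihg).comp (f := fun p : ℕ × ℕ => (p.1.unpair, p.2)) (by fun_prop)
  | @rfind f _ ihf =>
    have h1 : SF (fun p : ℕ × ℕ => 0 ∈ f (Nat.pair p.1 p.2)) :=
      SF.comp₂ (R := fun a b => b ∈ f a) ihf (by fun_prop) (by fun_prop)
    have h2 : SF (fun p : ℕ × ℕ => ∀ m < p.2, ∃ z, z + 1 ∈ f (Nat.pair p.1 m)) := by
      refine SF.ball (SF.ex (S := fun (q : (ℕ × ℕ) × ℕ) (z : ℕ) => z + 1 ∈ f (Nat.pair q.1.1 q.2))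
        (SF.comp₂ (R := fun a b => b ∈ f a) ihf (by fun_prop) (by fun_prop)) ?_) (by fun_prop)
      intro q z z' a b
      have := Part.mem_unique a b
      omega
    refine (h1.and h2).congr fun p => ?_
    refine Iff.trans ?_ Nat.mem_rfind.symm
    simp only [Part.map_eq_map, Part.mem_map_iff, decide_eq_true_eq, decide_eq_false_iff_not,
      exists_eq_right]
    refine and_congr Iff.rfl ⟨fun h m hm => ?_, fun h m hm => ?_⟩
    · obtain ⟨z, hz⟩ := h m hm
      exact ⟨_, hz, by omega⟩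
    · obtain ⟨z, hz, hz'⟩ := h hm
      exact ⟨z - 1, by rwa [show z - 1 + 1 = z by omega]⟩

lemma sfn_encode_ofFn (n : ℕ) : SFn (fun a : Fin n → ℕ => Encodable.encode (List.ofFn a)) := by
  induction n with
  | zero => simpa using SFn.const 0
  | succ n ih =>
    simp only [List.ofFn_succ, Encodable.encode_list_cons, Encodable.encode_nat, Nat.succ_eq_add_one]
    have : SFn (fun a : Fin (n + 1) → ℕ => Encodable.encode (List.ofFn fun i : Fin n => a i.succ)) :=
      ih.comp (h := fun (a : Fin (n + 1) → ℕ) (i : Fin n) => a i.succ) (by fun_prop)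
    fun_prop

theorem sf_of_re {n : ℕ} {S : (Fin n → ℕ) → Prop} (hS : REPred S) : SF S := by
  have h1 := sf_partrec hS
  have h2 : SFn (fun a : Fin n → ℕ => (Primcodable.finArrow.toEncodable).encode a) := by
    convert sfn_encode_ofFn n using 2 with a
    change Encodable.encode (List.Vector.ofFn a).toList = _
    rw [List.Vector.toList_ofFn]
  refine (h1.comp (f := fun a : Fin n → ℕ => (Primcodable.finArrow.toEncodable.encode a, 0))
    (h2.mk (SFn.const 0))).congr fun a => ?_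
  simp [Part.mem_assert_iff]
  exact fun _ => ⟨(), rfl⟩

end Crest.Agent.R323
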