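import Crest.Agent.R323.Ruler2

/-!
Exponentiation is single-fold Diophantine.
-/

set_option autoImplicit false

namespace Crest.Agent.R323

open Pell

lemma yn_succ_le {a : ℕ} (a1 : 1 < a) (n : ℕ) : yn a1 (n + 1) ≤ (2 * a) ^ n := by
  induction n with
  | zero => simp
  | succ n ih =>
    have := yn_succ_succ a1 n
    calc yn a1 (n + 2) ≤ 2 * a * yn a1 (n + 1) := by omega
      _ ≤ 2 * a * (2 * a) ^ n := Nat.mul_le_mul_left _ ih
      _ = (2 * a) ^ (n + 1) := by ring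

lemma yn_le {a : ℕ} (a1 : 1 < a) (n : ℕ) : yn a1 n ≤ (2 * a) ^ n := by
  cases n with
  | zero => simp
  | succ n => exact (yn_succ_le a1 n).trans (Nat.pow_le_pow_right (by omega) (by omega))

lemma le_yn_succ {a : ℕ} (a1 : 1 < a) (n : ℕ) : a ^ n ≤ yn a1 (n + 1) := by
  rw [yn_succ]; exact (xn_ge_a_pow a1 n).trans (Nat.le_add_right _ _)

lemma pell_modEq {a : ℕ} (a1 : 1 < a) (n : ℕ) :
    yn a1 n * (a - 2) + 2 ^ n ≡ xn a1 n [MOD 4 * a - 5] := by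
  have := x_sub_y_dvd_pow a1 2 n
  rw [Nat.modEq_iff_dvd, ← dvd_neg]
  convert this using 1
  · rfl
  · rw [Nat.cast_sub (show 5 ≤ 4 * a by omega)]; push_cast; ring
  · rw [Nat.cast_add, Nat.cast_mul, Nat.cast_sub (show 2 ≤ a by omega), xz, yz]; ring

lemma pell_iff {a : ℕ} (a1 : 1 < a) (x y : ℕ) :
    x * x = 1 + (a * a - 1) * y * y ↔ ∃ n, x = xn a1 n ∧ y = yn a1 n := by
  constructor
  · intro h
    exact eq_pell a1 (show x * x - (a * a - 1) * y * y = 1 by omega)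
  · rintro ⟨n, rfl, rfl⟩
    have : xn a1 n * xn a1 n - (a * a - 1) * yn a1 n * yn a1 n = 1 := pell_eq a1 n
    omega

theorem sfn_two_pow : SFn (fun k : ℕ => 2 ^ k) := by
  obtain ⟨F, hF, v₀, C, hb⟩ := exists_ruler
  set D := 2 * C + 3 with hD
  let Core : ℕ → ℕ → ℕ × ℕ → Prop := fun k m xy =>
    xy.1 * xy.1 = 1 + (m ^ D * m ^ D - 1) * xy.2 * xy.2 ∧ xy.2 ≤ F m ^ (D + 1) ∧
      xy.2 % (m ^ D - 1) = k ∧ (xy.2 * (m ^ D - 2) + m) % (4 * m ^ D - 5) = xy.1 % (4 * m ^ D - 5)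
  have ha : ∀ m, 2 ≤ m → 8 ≤ m ^ D ∧ m ≤ m ^ D := by
    intro m hm
    constructor
    · calc 8 = 2 ^ 3 := by norm_num
        _ ≤ m ^ 3 := Nat.pow_le_pow_left hm 3
        _ ≤ m ^ D := Nat.pow_le_pow_right (by omega) (by omega)
    · exact Nat.le_self_pow (by omega) m
  have bound : ∀ m (hm : 2 ≤ m) (_ : v₀ ≤ m) (a1 : 1 < m ^ D) (j : ℕ),
      yn a1 j ≤ F m ^ (D + 1) → 2 ^ j ≤ m ^ D := by
    intro m hm hv a1 j hj
    set L := Nat.log 2 m with hL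
    have hL1 : 1 ≤ L := Nat.log_pos (by norm_num) hm
    have h2 : 2 ^ (L * D) ≤ m ^ D := by
      rw [pow_mul]; exact Nat.pow_le_pow_left (Nat.pow_log_le_self 2 (by omega)) D
    refine le_trans (Nat.pow_le_pow_right (by norm_num) ?_) h2
    cases j with
    | zero => omega
    | succ i =>
      have h3 : 2 ^ (L * D * i) ≤ 2 ^ (C * L ^ 2 * (D + 1)) := by
        calc 2 ^ (L * D * i) = (2 ^ (L * D)) ^ i := pow_mul _ _ _
          _ ≤ (m ^ D) ^ i := Nat.pow_le_pow_left h2 i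
          _ ≤ yn a1 (i + 1) := le_yn_succ a1 i
          _ ≤ F m ^ (D + 1) := hj
          _ ≤ (2 ^ (C * L ^ 2)) ^ (D + 1) := Nat.pow_le_pow_left (hb m hv).2 _
          _ = _ := (pow_mul _ _ _).symm
      have h4 := (Nat.pow_le_pow_iff_right (by norm_num)).1 h3
      have h5 : L * D * i ≤ L * D * (2 * C * L) := by
        calc L * D * i ≤ C * L ^ 2 * (D + 1) := h4
          _ ≤ C * L ^ 2 * (2 * D) := Nat.mul_le_mul_left _ (by omega)
          _ = L * D * (2 * C * L) := by ring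
      have h6 : i ≤ 2 * C * L := Nat.le_of_mul_le_mul_left h5 (by positivity)
      rw [hD]; nlinarith
  have small : ∀ a j, 8 ≤ a → 2 ^ j ≤ a → j < a - 1 := by
    intro a j h8 hj
    rcases Nat.lt_or_ge j 2 with h | h
    · omega
    · obtain ⟨i, rfl⟩ := Nat.exists_eq_add_of_le h
      have := Nat.lt_two_pow_self (n := i)
      rw [pow_add] at hj
      omega
  have sound : ∀ k m (hm : 2 ≤ m) (_ : v₀ ≤ m) (a1 : 1 < m ^ D) xy, Core k m xy →
      xy = (xn a1 k, yn a1 k) ∧ m = 2 ^ k := by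
    rintro k m hm hv a1 ⟨x, y⟩ ⟨c1, c2, c3, c4⟩
    simp only at c1 c2 c3 c4
    obtain ⟨j, rfl, rfl⟩ := (pell_iff a1 x y).1 c1
    have b1 := bound m hm hv a1 j c2
    obtain ⟨h8, hmD⟩ := ha m hm
    have b2 := small _ _ h8 b1
    have b3 : yn a1 j % (m ^ D - 1) = j % (m ^ D - 1) := yn_modEq_a_sub_one a1 j
    rw [Nat.mod_eq_of_lt b2, c3] at b3
    subst b3
    refine ⟨rfl, ?_⟩
    have b4 : yn a1 k * (m ^ D - 2) + m ≡ yn a1 k * (m ^ D - 2) + 2 ^ k [MOD 4 * m ^ D - 5] :=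
      Nat.ModEq.trans c4 (pell_modEq a1 k).symm
    exact Nat.ModEq.eq_of_lt_of_lt (Nat.ModEq.add_left_cancel' _ b4) (by omega) (by omega)
  have complete : ∀ k (hm : 2 ≤ 2 ^ k) (_ : v₀ ≤ 2 ^ k) (a1 : 1 < (2 ^ k) ^ D),
      Core k (2 ^ k) (xn a1 k, yn a1 k) := by
    intro k hm hv a1
    obtain ⟨h8, hmD⟩ := ha _ hm
    refine ⟨(pell_iff a1 _ _).2 ⟨k, rfl, rfl⟩, ?_, ?_, pell_modEq a1 k⟩
    · have h1 := (hb _ hv).1
      rw [Nat.log_pow (by norm_num)] at h1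
      have hk : 1 ≤ k := by
        rcases Nat.eq_zero_or_pos k with rfl | h
        · simp at hm
        · exact h
      calc yn a1 k ≤ (2 * (2 ^ k) ^ D) ^ k := yn_le a1 k
        _ = 2 ^ ((k * D + 1) * k) := by rw [← pow_mul, ← pow_succ', ← pow_mul]
        _ ≤ 2 ^ (k ^ 2 * (D + 1)) := Nat.pow_le_pow_right (by norm_num) (by nlinarith)
        _ = (2 ^ (k ^ 2)) ^ (D + 1) := pow_mul _ _ _
        _ ≤ _ := Nat.pow_le_pow_left h1 _
    · have b3 : yn a1 k % ((2 ^ k) ^ D - 1) = k % ((2 ^ k) ^ D - 1) := yn_modEq_a_sub_one a1 k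
      simp only
      rw [b3, Nat.mod_eq_of_lt (small _ _ h8 hmD)]
  have hv₀ : v₀ + 2 ≤ 2 ^ (v₀ + 1) := Nat.lt_two_pow_self
  have hS : SF (fun p : ℕ × ℕ => ∃ xy, 0 < p.2 ∧ Core (p.1 + (v₀ + 1)) (p.2 * 2 ^ (v₀ + 1)) xy) := by
    refine SF.ex (by simp only [Core]; sf) ?_
    rintro ⟨k, m⟩ xy xy' ⟨hm, c⟩ ⟨-, c'⟩
    simp only at hm c c'
    have h1 : 2 ^ (v₀ + 1) ≤ m * 2 ^ (v₀ + 1) := Nat.le_mul_of_pos_left _ hm
    have h2 := ha (m * 2 ^ (v₀ + 1)) (by omega)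
    rw [(sound _ _ (by omega) (by omega) (by omega) _ c).1,
      (sound _ _ (by omega) (by omega) (by omega) _ c').1]
  refine hS.congr ?_
  rintro ⟨k, m⟩
  simp only
  constructor
  · rintro ⟨xy, hm, c⟩
    have h1 : 2 ^ (v₀ + 1) ≤ m * 2 ^ (v₀ + 1) := Nat.le_mul_of_pos_left _ hm
    have h2 := ha (m * 2 ^ (v₀ + 1)) (by omega)
    have := (sound _ _ (by omega) (by omega) (by omega) _ c).2
    rw [pow_add 2 k] at this
    exact Nat.eq_of_mul_eq_mul_right (Nat.two_pow_pos _) this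
  · rintro rfl
    have h1 : 2 ^ (v₀ + 1) ≤ 2 ^ (k + (v₀ + 1)) := Nat.pow_le_pow_right (by norm_num) (by omega)
    have h2 := ha (2 ^ (k + (v₀ + 1))) (by omega)
    rw [← pow_add]
    exact ⟨_, by positivity, complete _ (by omega) (by omega) (by omega)⟩

section
variable {X : Type} [Enc X]

lemma SFn.two_pow {f : X → ℕ} (hf : SFn f) : SFn (fun x => 2 ^ f x) := sfn_two_pow.comp hf

lemma pow_eq_mod (b k : ℕ) :
    b ^ k = 2 ^ ((b * k + b + 1) * k) % (2 ^ (b * k + b + 1) - b) := by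
  have h1 : b < 2 ^ b := Nat.lt_two_pow_self
  have h2 : b ^ k ≤ 2 ^ (b * k) := by rw [pow_mul]; exact Nat.pow_le_pow_left h1.le k
  have h3 : 2 ^ (b * k) ≤ 2 ^ (b * k + b) := Nat.pow_le_pow_right (by norm_num) (by omega)
  have h4 : 2 ^ b ≤ 2 ^ (b * k + b) := Nat.pow_le_pow_right (by norm_num) (by omega)
  have h5 : 2 ^ (b * k + b + 1) = 2 * 2 ^ (b * k + b) := by ring
  have h6 : 2 ^ (b * k + b + 1) ≡ b [MOD 2 ^ (b * k + b + 1) - b] :=
    ((Nat.modEq_iff_dvd' (by omega)).2 dvd_rfl).symm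
  have h7 := h6.pow k
  rw [← pow_mul] at h7
  rw [h7, Nat.mod_eq_of_lt (by omega)]

@[fun_prop] lemma SFn.pow {f g : X → ℕ} (hf : SFn f) (hg : SFn g) : SFn (fun x => f x ^ g x) := by
  have : (fun x => f x ^ g x) = fun x =>
      2 ^ ((f x * g x + f x + 1) * g x) % (2 ^ (f x * g x + f x + 1) - f x) :=
    funext fun x => pow_eq_mod _ _
  rw [this]
  exact SFn.mod (SFn.two_pow (by fun_prop)) (SFn.sub (SFn.two_pow (by fun_prop)) hf)

end

end Crest.Agent.R323
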