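import Crest.Agent.R323.Arith
import Crest.Agent.R323.Descent

/-!
A single-fold Diophantine function of quasi-polynomial growth.
-/

set_option autoImplicit false

namespace Crest.Agent.R323

/-! ### Abstract part -/

section abstract
variable {A : Type} [AddCommGroup A] (P : A) (h : A → ℝ) (K : ℕ)

/-- First difference of the height along `P`. -/
def dl (Q : A) : ℝ := h (Q + P) - h Q

/-- The points selected by the parameter `l`. -/
def Sol (l : ℝ) : Set A := {Q | dl P h (Q - P) ≤ l ∧ l < dl P h Q}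

variable {P h K}

lemma dl_step (H : ∀ Q, 1 ≤ h (Q + P) + h (Q - P) - 2 * h Q ∧ h (Q + P) + h (Q - P) - 2 * h Q ≤ K)
    (Q : A) : dl P h (Q - P) + 1 ≤ dl P h Q ∧ dl P h Q ≤ dl P h (Q - P) + K := by
  simp only [dl, sub_add_cancel]
  constructor <;> linarith [(H Q).1, (H Q).2]

lemma dl_add_nat
    (H : ∀ Q, 1 ≤ h (Q + P) + h (Q - P) - 2 * h Q ∧ h (Q + P) + h (Q - P) - 2 * h Q ≤ K)
    (Q : A) (n : ℕ) : dl P h Q + n ≤ dl P h (Q + n • P) ∧ dl P h (Q + n • P) ≤ dl P h Q + n * K := by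
  induction n with
  | zero => simp
  | succ n ih =>
    have := dl_step H (Q + (n + 1) • P)
    have e : Q + (n + 1) • P - P = Q + n • P := by rw [succ_nsmul]; abel
    rw [e] at this
    push_cast
    constructor <;> linarith [this.1, this.2, ih.1, ih.2]

lemma dl_mono
    (H : ∀ Q, 1 ≤ h (Q + P) + h (Q - P) - 2 * h Q ∧ h (Q + P) + h (Q - P) - 2 * h Q ≤ K)
    (Q : A) {m n : ℤ} (hmn : m ≤ n) :
    dl P h (Q + m • P) + (n - m) ≤ dl P h (Q + n • P) := by
  obtain ⟨k, rfl⟩ := Int.le.dest hmn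
  have := (dl_add_nat H (Q + m • P) k).1
  have e : Q + (m + k) • P = Q + m • P + k • P := by rw [add_zsmul, natCast_zsmul]; abel
  rw [e]; push_cast; linarith

lemma sol_exists
    (H : ∀ Q, 1 ≤ h (Q + P) + h (Q - P) - 2 * h Q ∧ h (Q + P) + h (Q - P) - 2 * h Q ≤ K)
    (l : ℝ) (R : A) : ∃ n : ℤ, R + n • P ∈ Sol P h l := by
  classical
  have h1 : ∃ n : ℤ, l < dl P h (R + n • P) := by
    obtain ⟨n, hn⟩ := exists_nat_gt (l - dl P h R)
    have := dl_mono H R (m := 0) (n := n) (by positivity)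
    simp only [zero_zsmul, add_zero] at this
    exact ⟨n, by push_cast at this; linarith⟩
  have h2 : ∃ b : ℤ, ∀ n : ℤ, l < dl P h (R + n • P) → b ≤ n := by
    obtain ⟨n, hn⟩ := exists_nat_gt (dl P h R - l)
    refine ⟨-n, fun m hm => ?_⟩
    by_contra hc
    push Not at hc
    have hm0 : m ≤ 0 := by omega
    have := dl_mono H R hm0
    simp only [zero_zsmul, add_zero] at this
    have hc' : (m : ℝ) < -n := by exact_mod_cast hc
    push_cast at this
    linarith
  obtain ⟨n, hn, hmin⟩ := Int.exists_least_of_bdd h2 h1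
  refine ⟨n, ?_, hn⟩
  by_contra hc
  push Not at hc
  have e : R + n • P - P = R + (n - 1) • P := by rw [sub_zsmul, one_zsmul]; abel
  rw [e] at hc
  have := hmin _ hc
  omega

lemma sol_unique
    (H : ∀ Q, 1 ≤ h (Q + P) + h (Q - P) - 2 * h Q ∧ h (Q + P) + h (Q - P) - 2 * h Q ≤ K)
    {l : ℝ} {Q : A} {n : ℤ} (h1 : Q ∈ Sol P h l) (h2 : Q + n • P ∈ Sol P h l) : n = 0 := by
  rcases lt_trichotomy n 0 with hn | hn | hn
  · have := dl_mono H Q (m := n) (n := -1) (by omega)
    have e : Q + (-1 : ℤ) • P = Q - P := by rw [neg_one_zsmul]; abel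
    rw [e] at this
    have hn' : (n : ℝ) ≤ -1 := by exact_mod_cast (show n ≤ -1 by omega)
    push_cast at this
    linarith [h1.1, h2.2]
  · exact hn
  · have := dl_mono H Q (m := 0) (n := n - 1) (by omega)
    have e : Q + n • P - P = Q + (n - 1) • P := by rw [sub_zsmul, one_zsmul]; abel
    have h3 := h2.1
    rw [e] at h3
    have hn' : (1 : ℝ) ≤ n := by exact_mod_cast (show 1 ≤ n by omega)
    simp only [zero_zsmul, add_zero] at this
    push_cast at this
    linarith [h1.2]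

lemma sol_bij
    (H : ∀ Q, 1 ≤ h (Q + P) + h (Q - P) - 2 * h Q ∧ h (Q + P) + h (Q - P) - 2 * h Q ≤ K)
    (l : ℝ) : Set.BijOn (QuotientAddGroup.mk : A → A ⧸ AddSubgroup.zmultiples P)
      (Sol P h l) Set.univ := by
  refine ⟨fun _ _ => Set.mem_univ _, ?_, ?_⟩
  · intro Q hQ Q' hQ' e
    rw [QuotientAddGroup.eq] at e
    obtain ⟨n, hn⟩ := e
    simp only at hn
    have e2 : Q' = Q + n • P := by rw [hn]; abel
    rw [e2] at hQ' ⊢
    rw [sol_unique H hQ hQ']; simp
  · intro q _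
    obtain ⟨R, rfl⟩ := QuotientAddGroup.mk_surjective q
    obtain ⟨n, hn⟩ := sol_exists H l R
    refine ⟨_, hn, ?_⟩
    rw [QuotientAddGroup.eq]
    exact ⟨-n, by simp⟩

lemma sol_lower
    (H : ∀ Q, 1 ≤ h (Q + P) + h (Q - P) - 2 * h Q ∧ h (Q + P) + h (Q - P) - 2 * h Q ≤ K)
    (h0 : ∀ Q, 0 ≤ h Q) {l : ℝ} {Q : A} (hQ : Q ∈ Sol P h l) (j : ℕ) :
    j * (l - j * K) ≤ h Q := by
  have key : ∀ i : ℕ, i ≤ j → h (Q - i • P) + i * (l - j * K) ≤ h Q := by
    intro i
    induction i with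
    | zero => simp
    | succ i ih =>
      intro hi
      have a := ih (by omega)
      have b := (dl_add_nat H (Q - (i + 1) • P) (i + 1)).2
      rw [sub_add_cancel] at b
      have e : Q - (i + 1) • P + P = Q - i • P := by rw [succ_nsmul]; abel
      have c : dl P h (Q - (i + 1) • P) = h (Q - i • P) - h (Q - (i + 1) • P) := by rw [dl, e]
      have d : ((i + 1 : ℕ) : ℝ) * K ≤ j * K :=
        mul_le_mul_of_nonneg_right (by exact_mod_cast hi) (by positivity)
      have := hQ.2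
      push_cast at *
      linarith
  linarith [key j le_rfl, h0 (Q - j • P)]

lemma sol_upper [Finite (A ⧸ AddSubgroup.zmultiples P)]
    (H : ∀ Q, 1 ≤ h (Q + P) + h (Q - P) - 2 * h Q ∧ h (Q + P) + h (Q - P) - 2 * h Q ≤ K) :
    ∃ B : ℕ, ∀ l : ℝ, B ≤ l → ∀ Q ∈ Sol P h l, h Q ≤ B + (1 + l + B) * l := by
  obtain ⟨B₀, hB₀⟩ := (Set.finite_range (fun q : A ⧸ AddSubgroup.zmultiples P =>
    |dl P h q.out| + |h q.out|)).bddAbove
  obtain ⟨B, hB⟩ := exists_nat_ge B₀
  refine ⟨B, fun l hl Q hQ => ?_⟩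
  set R : A := (QuotientAddGroup.mk Q : A ⧸ AddSubgroup.zmultiples P).out with hR
  have hRB : |dl P h R| + |h R| ≤ B := le_trans (hB₀ ⟨_, rfl⟩) hB
  have e : (QuotientAddGroup.mk R : A ⧸ AddSubgroup.zmultiples P) = QuotientAddGroup.mk Q :=
    Quotient.out_eq _
  rw [QuotientAddGroup.eq] at e
  obtain ⟨n, hn⟩ := e
  simp only at hn
  have e2 : Q = R + n • P := by rw [hn]; abel
  have a1 : dl P h R ≤ B := by linarith [le_abs_self (dl P h R), abs_nonneg (h R)]
  have a2 : -(B : ℝ) ≤ dl P h R := by linarith [neg_abs_le (dl P h R), abs_nonneg (h R)]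
  have a3 : h R ≤ B := by linarith [le_abs_self (h R), abs_nonneg (dl P h R)]
  have hl0 : 0 ≤ l := le_trans (by positivity) hl
  have hn0 : 0 < n := by
    by_contra hc
    push Not at hc
    have := dl_mono H R hc
    rw [← e2] at this
    simp only [zero_zsmul, add_zero] at this
    have hc' : (n : ℝ) ≤ 0 := by exact_mod_cast hc
    push_cast at this
    linarith [hQ.2]
  have e3 : Q - P = R + (n - 1) • P := by rw [e2, sub_zsmul, one_zsmul]; abel
  have hn1 : (n : ℝ) ≤ 1 + l + B := by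
    have := dl_mono H R (m := 0) (n := n - 1) (by omega)
    rw [← e3] at this
    simp only [zero_zsmul, add_zero] at this
    push_cast at this
    linarith [hQ.1]
  have key : ∀ i : ℕ, (i : ℤ) ≤ n → h (R + (i : ℤ) • P) ≤ h R + i * l := by
    intro i
    induction i with
    | zero => simp
    | succ i ih =>
      intro hi
      have a := ih (by omega)
      have b := dl_mono H R (m := i) (n := n - 1) (by omega)
      rw [← e3] at b
      have c : ((i : ℤ) : ℝ) ≤ ((n - 1 : ℤ) : ℝ) := by exact_mod_cast (show (i : ℤ) ≤ n - 1 by omega)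
      have e4 : R + ((i + 1 : ℕ) : ℤ) • P = R + (i : ℤ) • P + P := by
        push_cast; rw [add_zsmul, one_zsmul]; abel
      have d : dl P h (R + (i : ℤ) • P) = h (R + ((i + 1 : ℕ) : ℤ) • P) - h (R + (i : ℤ) • P) := by
        rw [dl, e4]
      have := hQ.1
      push_cast at *
      linarith
  obtain ⟨k, rfl⟩ := Int.eq_ofNat_of_zero_le hn0.le
  have := key k le_rfl
  rw [← e2] at this
  have b : (k : ℝ) * l ≤ (1 + l + B) * l :=
    mul_le_mul_of_nonneg_right (by exact_mod_cast hn1) hl0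
  linarith

end abstract

/-! ### Rational-valued functions -/

section
variable {X : Type} [Enc X]

/-- Rational-valued functions whose numerator and denominator are `SFn`. -/
def SFQ (r : X → ℚ) : Prop := SFn (fun x => ((r x).num, (r x).den))

lemma SFQ.num {r : X → ℚ} (h : SFQ r) : SFn (fun x => (r x).num) := SFn.fst h
lemma SFQ.den {r : X → ℚ} (h : SFQ r) : SFn (fun x => (r x).den) := SFn.snd h

lemma SFQ.div_int {n d : X → ℤ} (hn : SFn n) (hd : SFn d) :
    SFQ (fun x => (n x : ℚ) / (d x : ℚ)) := by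
  have h1 : SF (fun p : X × (ℤ × ℕ) => d p.1 = 0 ∧ p.2 = (0, 1)) := by sf
  have h2 : SF (fun p : X × (ℤ × ℕ) => (d p.1).natAbs ≠ 0 ∧ 0 < p.2.2 ∧
      p.2.1 * d p.1 = n p.1 * p.2.2 ∧ Nat.Coprime p.2.1.natAbs p.2.2) := by
    refine SF.and (by sf) (SF.and (by sf) (SF.and (by sf) (SF.coprime (by fun_prop) (by fun_prop))))
  refine (h1.or h2 ?_).congr ?_
  · rintro p ⟨a, -⟩ ⟨b, -⟩
    simp [a] at b
  · rintro ⟨x, a, b⟩
    simp only
    by_cases hd0 : d x = 0
    · simp [hd0]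
    · have hd0' : (d x : ℚ) ≠ 0 := by exact_mod_cast hd0
      constructor
      · rintro (⟨h, -⟩ | ⟨-, hb, e, hc⟩)
        · exact (hd0 h).elim
        · have hb' : (b : ℚ) ≠ 0 := by exact_mod_cast hb.ne'
          have e2 : (n x : ℚ) / d x = (a : ℚ) / ((b : ℤ) : ℚ) := by
            rw [div_eq_div_iff hd0' (by exact_mod_cast hb.ne')]
            exact_mod_cast e.symm
          rw [e2, Rat.num_div_eq_of_coprime (by exact_mod_cast hb) (by simpa using hc)]
          have := Rat.den_div_eq_of_coprime (a := a) (b := b) (by exact_mod_cast hb)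
            (by simpa using hc)
          simp only [Prod.mk.injEq, true_and]
          exact_mod_cast this.symm
      · intro e
        right
        obtain ⟨rfl, rfl⟩ := Prod.mk.inj e
        refine ⟨by simpa using hd0, Rat.den_pos _, ?_, Rat.reduced _⟩
        have := Rat.num_div_den ((n x : ℚ) / d x)
        rw [div_eq_div_iff (by exact_mod_cast Rat.den_ne_zero _) hd0'] at this
        exact_mod_cast this

lemma SFQ.const (q : ℚ) : SFQ (fun _ : X => q) := SFn.const _

lemma SFQ.sub {r s : X → ℚ} (hr : SFQ r) (hs : SFQ s) : SFQ (fun x => r x - s x) := by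
  have a1 := hr.num; have a2 := hr.den; have a3 := hs.num; have a4 := hs.den
  have := SFQ.div_int (n := fun x => (r x).num * (s x).den - (s x).num * (r x).den)
    (d := fun x => (r x).den * (s x).den) (by fun_prop) (by fun_prop)
  convert this using 2 with x
  have b1 : ((r x).den : ℚ) ≠ 0 := by exact_mod_cast Rat.den_ne_zero _
  have b2 : ((s x).den : ℚ) ≠ 0 := by exact_mod_cast Rat.den_ne_zero _
  nth_rw 1 [← Rat.num_div_den (r x), ← Rat.num_div_den (s x)]
  push_cast; field_simp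

lemma SFQ.mul {r s : X → ℚ} (hr : SFQ r) (hs : SFQ s) : SFQ (fun x => r x * s x) := by
  have a1 := hr.num; have a2 := hr.den; have a3 := hs.num; have a4 := hs.den
  have := SFQ.div_int (n := fun x => (r x).num * (s x).num)
    (d := fun x => (r x).den * (s x).den) (by fun_prop) (by fun_prop)
  convert this using 2 with x
  nth_rw 1 [← Rat.num_div_den (r x), ← Rat.num_div_den (s x)]
  push_cast; rw [div_mul_div_comm]

lemma SFQ.div {r s : X → ℚ} (hr : SFQ r) (hs : SFQ s) : SFQ (fun x => r x / s x) := by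
  have a1 := hr.num; have a2 := hr.den; have a3 := hs.num; have a4 := hs.den
  have := SFQ.div_int (n := fun x => (r x).num * (s x).den)
    (d := fun x => (r x).den * (s x).num) (by fun_prop) (by fun_prop)
  convert this using 2 with x
  nth_rw 1 [← Rat.num_div_den (r x), ← Rat.num_div_den (s x)]
  push_cast; rw [div_div_div_eq]

lemma SFQ.pow {r : X → ℚ} (hr : SFQ r) (k : ℕ) : SFQ (fun x => r x ^ k) := by
  induction k with
  | zero => simpa using SFQ.const 1
  | succ k ih => simp only [pow_succ]; exact ih.mul hr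

lemma SFQ.eq {r s : X → ℚ} (hr : SFQ r) (hs : SFQ s) : SF (fun x => r x = s x) :=
  (SF.eq hr hs).congr fun x =>
    ⟨fun h => Rat.ext (congrArg Prod.fst h) (congrArg Prod.snd h), fun h => by rw [h]⟩

lemma SFQ.ne {r s : X → ℚ} (hr : SFQ r) (hs : SFQ s) : SF (fun x => r x ≠ s x) := by
  have := (hr.sub hs).num
  refine (SF.ne (f := fun x => (r x - s x).num.natAbs) (g := fun _ => 0) (by fun_prop)
    (by fun_prop)).congr fun x => ?_
  simp [sub_eq_zero]

lemma SFQ.Hq {r : X → ℚ} (hr : SFQ r) : SFn (fun x => Hq (r x)) := by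
  have a1 := hr.num; have a2 := hr.den
  unfold Crest.Agent.R323.Hq; fun_prop

/-- Selecting one witness among exactly `s` witnesses. -/
lemma select {Y : Type} [Enc Y] {D : X → Prop} {R : X → Y → Prop} (hD : SF D)
    (hR : SF (fun p : X × Y => R p.1 p.2)) (s : ℕ) (hs : 0 < s)
    (hc : ∀ x, D x → {y | R x y}.ncard = s) :
    ∃ R' : X → Y → Prop, SF (fun p : X × Y => R' p.1 p.2) ∧
      (∀ x y y', R' x y → R' x y' → y = y') ∧ (∀ x y, R' x y → D x ∧ R x y) ∧
      (∀ x, D x → ∃ y, R' x y) := by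
  classical
  obtain ⟨c, hc1, hc2⟩ := exists_sfn_equiv Y
  let R1 : X → ℕ → Prop := fun x n => ∃ y, c y = n ∧ R x y
  have hR1 : SF (fun p : X × ℕ => R1 p.1 p.2) := by
    refine SF.ex (S := fun (p : X × ℕ) y => c y = p.2 ∧ R p.1 y)
      (SF.and (by sf) (hR.comp₂ (by fun_prop) (by fun_prop))) ?_
    rintro p y y' ⟨a, -⟩ ⟨b, -⟩
    exact hc2 (a.trans b.symm)
  have hT : ∀ x, D x → ∃ T : Finset ℕ, T.card = s ∧ ∀ n, R1 x n ↔ n ∈ T := by
    intro x hx
    have hfin : {y | R x y}.Finite := Set.finite_of_ncard_pos (by rw [hc x hx]; exact hs)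
    refine ⟨hfin.toFinset.image c, ?_, fun n => ?_⟩
    · rw [Finset.card_image_of_injective _ hc2, ← Set.ncard_eq_toFinset_card _ hfin, hc x hx]
    · simp only [R1, Finset.mem_image, Set.Finite.mem_toFinset, Set.mem_ofPred_eq, and_comm]
  let R2 : X → (Fin s → ℕ) → Prop := fun x t =>
    D x ∧ (∀ i, R1 x (t i)) ∧ ∀ ij : {ij : Fin s × Fin s // ij.1 < ij.2}, t ij.1.1 < t ij.1.2
  have hR2 : SF (fun p : X × (Fin s → ℕ) => R2 p.1 p.2) := by
    refine SF.and (hD.comp (by fun_prop)) (SF.and (SF.forall_finite fun i => ?_)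
      (SF.forall_finite fun ij => ?_))
    · exact hR1.comp₂ (by fun_prop) (by fun_prop)
    · sf
  have hu : ∀ x t t', R2 x t → R2 x t' → t = t' := by
    rintro x t t' ⟨hx, a1, a2⟩ ⟨-, b1, b2⟩
    obtain ⟨T, hT1, hT2⟩ := hT x hx
    rw [Finset.orderEmbOfFin_unique hT1 (f := t) (fun i => (hT2 _).1 (a1 i))
        (fun i j hij => a2 ⟨(i, j), hij⟩),
      Finset.orderEmbOfFin_unique hT1 (f := t') (fun i => (hT2 _).1 (b1 i))
        (fun i j hij => b2 ⟨(i, j), hij⟩)]
  refine ⟨fun x y => ∃ t, R2 x t ∧ c y = t ⟨0, hs⟩, ?_, ?_, ?_, ?_⟩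
  · refine SF.ex (S := fun (p : X × Y) t => R2 p.1 t ∧ c p.2 = t ⟨0, hs⟩)
      (SF.and (hR2.comp₂ (by fun_prop) (by fun_prop)) (by sf)) ?_
    rintro p t t' ⟨a, -⟩ ⟨b, -⟩
    exact hu _ _ _ a b
  · rintro x y y' ⟨t, a, a'⟩ ⟨t', b, b'⟩
    rw [hu _ _ _ a b] at a'
    exact hc2 (a'.trans b'.symm)
  · rintro x y ⟨t, ⟨hx, a1, -⟩, a'⟩
    obtain ⟨y', e, hy'⟩ := a1 ⟨0, hs⟩
    rw [← a'] at e
    exact ⟨hx, hc2 e ▸ hy'⟩
  · intro x hx
    obtain ⟨T, hT1, hT2⟩ := hT x hx
    have hmem : ∀ i, R1 x (T.orderEmbOfFin hT1 i) := fun i =>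
      (hT2 _).2 (Finset.orderEmbOfFin_mem _ _ _)
    obtain ⟨y, hy, -⟩ := hmem ⟨0, hs⟩
    exact ⟨y, T.orderEmbOfFin hT1, ⟨hx, hmem, fun ij => (T.orderEmbOfFin hT1).strictMono ij.2⟩, hy⟩

end

end Crest.Agent.R323
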