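import Crest.Agent.R323.Ruler

/-!
The ruler function.
-/

set_option autoImplicit false

namespace Crest.Agent.R323

/-- Codes of pairs of rationals. -/
abbrev ZZ : Type := (ℤ × ℕ) × (ℤ × ℕ)

/-- First coordinate. -/
def zx (z : ZZ) : ℚ := (z.1.1 : ℚ) / ((z.1.2 : ℤ) : ℚ)
/-- Second coordinate. -/
def zy (z : ZZ) : ℚ := (z.2.1 : ℚ) / ((z.2.2 : ℤ) : ℚ)
/-- The code of a pair of rationals. -/
def zc (x y : ℚ) : ZZ := ((x.num, x.den), (y.num, y.den))

@[simp] lemma zx_zc (x y : ℚ) : zx (zc x y) = x := by simp [zx, zc, Rat.num_div_den]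
@[simp] lemma zy_zc (x y : ℚ) : zy (zc x y) = y := by simp [zy, zc, Rat.num_div_den]

/-- The selecting relation in coordinates. -/
def Rel (x₀ y₀ : ℚ) (v : ℕ) (z : ZZ) : Prop :=
  z = zc (zx z) (zy z) ∧ zy z ^ 2 = zx z ^ 3 - 2 * zx z ∧ zx z ≠ x₀ ∧
    Hq (zx z) ≤ v * Hq (((zy z - -y₀) / (zx z - x₀)) ^ 2 - zx z - x₀) ∧
    v * Hq (zx z) < Hq (((zy z - y₀) / (zx z - x₀)) ^ 2 - zx z - x₀)

lemma sfq_zx : SFQ (fun p : ℕ × ZZ => zx p.2) := SFQ.div_int (by fun_prop) (by fun_prop)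
lemma sfq_zy : SFQ (fun p : ℕ × ZZ => zy p.2) := SFQ.div_int (by fun_prop) (by fun_prop)

lemma sf_Rel (x₀ y₀ : ℚ) : SF (fun p : ℕ × ZZ => Rel x₀ y₀ p.1 p.2) := by
  have hx := sfq_zx
  have hy := sfq_zy
  refine SF.and (SF.eq (by fun_prop) (SFn.mk hx hy)) (SF.and ?_ (SF.and ?_ (SF.and ?_ ?_)))
  · exact SFQ.eq (hy.pow 2) ((hx.pow 3).sub ((SFQ.const 2).mul hx))
  · exact SFQ.ne hx (SFQ.const _)
  · exact SF.le hx.Hq (SFn.mul (by fun_prop)
      (((((hy.sub (SFQ.const _)).div (hx.sub (SFQ.const _))).pow 2).sub hx).sub (SFQ.const _)).Hq)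
  · exact SF.lt (SFn.mul (by fun_prop) hx.Hq)
      (((((hy.sub (SFQ.const _)).div (hx.sub (SFQ.const _))).pow 2).sub hx).sub (SFQ.const _)).Hq

lemma rel_iff {x₀ y₀ : ℚ} (h₀ : y₀ ^ 2 = x₀ ^ 3 - 2 * x₀) {v : ℕ} (hv : 0 < v) {x y : ℚ}
    (h : y ^ 2 = x ^ 3 - 2 * x) (hx : x ≠ x₀) :
    pt x y h ∈ Sol (pt x₀ y₀ h₀) ht (Real.log v) ↔ Rel x₀ y₀ v (zc x y) := by
  obtain ⟨y₃, h₃, e₃⟩ := add_pt_ne h h₀ hx
  obtain ⟨y₄, h₄, e₄⟩ := add_pt_ne h
    (show (-y₀) ^ 2 = x₀ ^ 3 - 2 * x₀ by rw [neg_sq]; exact h₀) hx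
  have e₅ : pt x y h - pt x₀ y₀ h₀ = pt _ y₄ h₄ := by rw [sub_eq_add_neg, neg_pt, e₄]
  simp only [Sol, dl, Set.mem_ofPred_eq, sub_add_cancel, Rel, zx_zc, zy_zc, h, hx, ne_eq,
    not_false_eq_true, true_and]
  rw [e₃, e₅, ht_pt, ht_pt, ht_pt]
  have p1 : (0 : ℝ) < Hq x := by exact_mod_cast Hq_pos _
  have p2 : (0 : ℝ) < Hq (((y - -y₀) / (x - x₀)) ^ 2 - x - x₀) := by exact_mod_cast Hq_pos _
  have p3 : (0 : ℝ) < Hq (((y - y₀) / (x - x₀)) ^ 2 - x - x₀) := by exact_mod_cast Hq_pos _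
  have p4 : (0 : ℝ) < v := by exact_mod_cast hv
  rw [sub_le_iff_le_add, lt_sub_iff_add_lt, ← Real.log_mul p4.ne' p2.ne',
    ← Real.log_mul p4.ne' p1.ne', Real.log_le_log_iff p1 (by positivity),
    Real.log_lt_log_iff (by positivity) p3]
  norm_cast

/-- Coordinates of a point. -/
def gc : G → ZZ
  | .zero => zc 0 0
  | .some x y _ => zc x y

lemma log_bounds (v : ℕ) (hv : 0 < v) :
    (Nat.log 2 v : ℝ) / 2 ≤ Real.log v ∧ Real.log v ≤ Nat.log 2 v + 1 := by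
  have h1 : 2 ^ Nat.log 2 v ≤ v := Nat.pow_log_le_self 2 hv.ne'
  have h2 : v < 2 ^ (Nat.log 2 v + 1) := Nat.lt_pow_succ_log_self (by norm_num) v
  have h1' : (2 : ℝ) ^ Nat.log 2 v ≤ v := by exact_mod_cast h1
  have h2' : (v : ℝ) ≤ 2 ^ (Nat.log 2 v + 1) := by exact_mod_cast h2.le
  have a1 := Real.log_le_log (by positivity) h1'
  have a2 := Real.log_le_log (by exact_mod_cast hv) h2'
  rw [Real.log_pow] at a1 a2
  have b1 := Real.log_two_gt_d9
  have b2 := Real.log_two_lt_d9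
  have c : (0 : ℝ) ≤ Nat.log 2 v := by positivity
  push_cast at a2
  constructor <;> nlinarith

theorem exists_ruler : ∃ F : ℕ → ℕ, SFn F ∧ ∃ v₀ C : ℕ, ∀ v, v₀ ≤ v →
    2 ^ (Nat.log 2 v ^ 2) ≤ F v ∧ F v ≤ 2 ^ (C * Nat.log 2 v ^ 2) := by
  classical
  obtain ⟨x₀, y₀, h₀, K, hfin, H⟩ := curve_main
  set P : G := pt x₀ y₀ h₀ with hP
  obtain ⟨B, hB⟩ := sol_upper H
  have hK : 1 ≤ K := by
    have := (H 0).1.trans (H 0).2
    exact_mod_cast this
  obtain ⟨M, hM⟩ := exists_nat_ge (|dl P ht 0| + |dl P ht P| + |dl P ht (-P)| + B)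
  set v₀ : ℕ := 2 ^ (2 * M + 8 * K) with hv₀
  have hL : ∀ v, v₀ ≤ v → 2 * M + 8 * K ≤ Nat.log 2 v := fun v hv =>
    Nat.le_log_of_pow_le (by norm_num) hv
  have hpos : ∀ v, v₀ ≤ v → 0 < v := fun v hv => lt_of_lt_of_le (by positivity) hv
  have hlog : ∀ v, v₀ ≤ v → (M : ℝ) ≤ Real.log v := by
    intro v hv
    have a := (log_bounds v (hpos v hv)).1
    have b : ((2 * M + 8 * K : ℕ) : ℝ) ≤ Nat.log 2 v := by exact_mod_cast hL v hv
    push_cast at b
    have : (0 : ℝ) ≤ K := by positivity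
    linarith
  have haff : ∀ v, v₀ ≤ v → ∀ Q ∈ Sol P ht (Real.log v), ∃ x y h, Q = pt x y h ∧ x ≠ x₀ := by
    intro v hv Q hQ
    have a := hlog v hv
    have b := hQ.2
    have c0 := abs_nonneg (dl P ht 0)
    have c1 := abs_nonneg (dl P ht P)
    have c2 := abs_nonneg (dl P ht (-P))
    have c3 : (0 : ℝ) ≤ B := by positivity
    rcases G_cases Q with rfl | ⟨x, y, h, rfl⟩
    · linarith [le_abs_self (dl P ht 0)]
    · refine ⟨x, y, h, rfl, ?_⟩
      rintro rfl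
      rcases eq_or_neg_of_x h h₀ with e | e <;> rw [e, ← hP] at b
      · linarith [le_abs_self (dl P ht P)]
      · linarith [le_abs_self (dl P ht (-P))]
  have hbij : ∀ v, v₀ ≤ v → Set.BijOn gc (Sol P ht (Real.log v)) {z | Rel x₀ y₀ v z} := by
    intro v hv
    refine ⟨?_, ?_, ?_⟩
    · intro Q hQ
      obtain ⟨x, y, h, rfl, hx⟩ := haff v hv Q hQ
      exact (rel_iff h₀ (hpos v hv) h hx).1 hQ
    · intro Q hQ Q' hQ' e
      obtain ⟨x, y, h, rfl, hx⟩ := haff v hv Q hQ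
      obtain ⟨x', y', h', rfl, hx'⟩ := haff v hv Q' hQ'
      have e' : zc x y = zc x' y' := e
      rw [pt_inj]
      exact ⟨by simpa using congrArg zx e', by simpa using congrArg zy e'⟩
    · intro z hz
      have hz' : Rel x₀ y₀ v (zc (zx z) (zy z)) := hz.1 ▸ hz
      exact ⟨pt (zx z) (zy z) hz.2.1, (rel_iff h₀ (hpos v hv) _ hz.2.2.1).2 hz', hz.1.symm⟩
  have hcard : ∀ v, v₀ ≤ v → {z | Rel x₀ y₀ v z}.ncard =
      Nat.card (G ⧸ AddSubgroup.zmultiples P) := by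
    intro v hv
    rw [← (hbij v hv).ncard_eq, (sol_bij H (Real.log v)).ncard_eq, Set.ncard_univ]
  obtain ⟨R', hR1, hR2, hR3, hR4⟩ := select (D := fun v => v₀ ≤ v) (R := Rel x₀ y₀) (by sf)
    (sf_Rel x₀ y₀) _ Nat.card_pos hcard
  let F : ℕ → ℕ := fun v => if hv : v₀ ≤ v then Hq (zx (hR4 v hv).choose) ^ (32 * K) else 0
  refine ⟨F, ?_, v₀, 64 * K * (3 * B + 6), fun v hv => ?_⟩
  · have h1 : SF (fun p : ℕ × ℕ => p.1 < v₀ ∧ p.2 = 0) := by sf
    have h2 : SF (fun p : ℕ × ℕ => ∃ z, R' p.1 z ∧ p.2 = Hq (zx z) ^ (32 * K)) := by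
      have h3 : SFn (fun q : (ℕ × ℕ) × ZZ => Hq (zx q.2)) :=
        SFQ.Hq (SFQ.div_int (by fun_prop) (by fun_prop))
      refine SF.ex (SF.and (hR1.comp₂ (by fun_prop) (by fun_prop)) (by sf)) ?_
      rintro p z z' ⟨a, -⟩ ⟨b, -⟩
      exact hR2 _ _ _ a b
    refine (h1.or h2 ?_).congr ?_
    · rintro p ⟨a, -⟩ ⟨z, b, -⟩
      have := (hR3 _ _ b).1
      omega
    · rintro ⟨v, w⟩
      simp only [F]
      by_cases hv : v₀ ≤ v
      · simp only [hv, dif_pos]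
        constructor
        · rintro (⟨a, -⟩ | ⟨z, a, b⟩)
          · omega
          · rw [b, hR2 _ _ _ a (hR4 v hv).choose_spec]
        · intro e
          exact Or.inr ⟨_, (hR4 v hv).choose_spec, e⟩
      · simp only [hv, dif_neg, not_false_eq_true]
        constructor
        · rintro (⟨-, a⟩ | ⟨z, a, -⟩)
          · exact a
          · exact (hv (hR3 _ _ a).1).elim
        · intro e
          exact Or.inl ⟨by omega, e⟩
  · simp only [F, hv, dif_pos]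
    set z := (hR4 v hv).choose
    have hz : Rel x₀ y₀ v z := (hR3 _ _ (hR4 v hv).choose_spec).2
    have hz' : Rel x₀ y₀ v (zc (zx z) (zy z)) := hz.1 ▸ hz
    have hQ := (rel_iff h₀ (hpos v hv) hz.2.1 hz.2.2.1).2 hz'
    set L := Nat.log 2 v with hLdef
    have hL' := hL v hv
    rw [← hLdef] at hL'
    obtain ⟨l1, l2⟩ := log_bounds v (hpos v hv)
    rw [← hLdef] at l1 l2
    have p1 : (0 : ℝ) < Hq (zx z) := by exact_mod_cast Hq_pos _
    have b1 := Real.log_two_gt_d9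
    have b2 := Real.log_two_lt_d9
    have hK' : (1 : ℝ) ≤ K := by exact_mod_cast hK
    have hL1 : (1 : ℝ) ≤ L := by exact_mod_cast (show 1 ≤ L by omega)
    constructor
    · have lo := sol_lower H ht_nonneg hQ (L / (4 * K))
      rw [ht_pt] at lo
      set j := L / (4 * K) with hj
      have j1 : j * (4 * K) ≤ L := Nat.div_mul_le_self _ _
      have j2 : L < (j + 1) * (4 * K) := by
        rw [mul_comm]; exact Nat.lt_mul_div_succ _ (by omega)
      have j3 : L ≤ 8 * K * j := by nlinarith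
      have j1' : (j : ℝ) * (4 * K) ≤ L := by exact_mod_cast j1
      have j3' : (L : ℝ) ≤ 8 * K * j := by exact_mod_cast j3
      have j0 : (0 : ℝ) ≤ j := by positivity
      have k1 : (j : ℝ) * (L / 4) ≤ j * (Real.log v - j * K) :=
        mul_le_mul_of_nonneg_left (by linarith) j0
      have k2 : (L : ℝ) ^ 2 ≤ 32 * K * Real.log (Hq (zx z)) := by nlinarith
      have k3 : Real.log ((2 : ℝ) ^ (L ^ 2)) ≤ Real.log ((Hq (zx z) : ℝ) ^ (32 * K)) := by
        rw [Real.log_pow, Real.log_pow]; push_cast; nlinarith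
      rw [Real.log_le_log_iff (by positivity) (by positivity)] at k3
      exact_mod_cast k3
    · have up := hB (Real.log v) (by
        have := hlog v hv
        linarith [abs_nonneg (dl P ht 0), abs_nonneg (dl P ht P), abs_nonneg (dl P ht (-P))]) _ hQ
      rw [ht_pt] at up
      have c3 : (0 : ℝ) ≤ B := by positivity
      have l0 : 0 ≤ Real.log v := by linarith
      have k1 : (1 + Real.log v + B) * Real.log v ≤ (1 + 2 * L + B) * (2 * L) :=
        mul_le_mul (by linarith) (by linarith) l0 (by positivity)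
      have k2 : Real.log (Hq (zx z)) ≤ (3 * B + 6) * (L : ℝ) ^ 2 := by
        have : (L : ℝ) ≤ L ^ 2 := by nlinarith
        have : (1 : ℝ) ≤ L ^ 2 := by nlinarith
        nlinarith
      have k3 : Real.log ((Hq (zx z) : ℝ) ^ (32 * K)) ≤
          Real.log ((2 : ℝ) ^ (64 * K * (3 * B + 6) * L ^ 2)) := by
        rw [Real.log_pow, Real.log_pow]; push_cast
        have : (0 : ℝ) ≤ K * ((3 * B + 6) * (L : ℝ) ^ 2) := by positivity
        nlinarith
      rw [Real.log_le_log_iff (by positivity) (by positivity)] at k3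
      exact_mod_cast k3

end Crest.Agent.R323
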