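import Mathlib

/-!
Single-fold Diophantine predicates: basic framework.
-/

set_option autoImplicit false

namespace Crest.Agent.R323

/-- Types identified with finite tuples of natural numbers. -/
class Enc (X : Type) where
  ι : Type
  fin : Finite ι
  e : X ≃ (ι → ℕ)

instance (X : Type) [Enc X] : Finite (Enc.ι X) := Enc.fin

instance encNat : Enc ℕ where
  ι := Unit
  fin := inferInstance
  e := (Equiv.funUnique Unit ℕ).symm

instance encProd (X Y : Type) [Enc X] [Enc Y] : Enc (X × Y) where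
  ι := Enc.ι X ⊕ Enc.ι Y
  fin := inferInstance
  e := (Equiv.prodCongr Enc.e Enc.e).trans (Equiv.sumArrowEquivProdArrow _ _ ℕ).symm

instance encFun (β : Type) [Finite β] : Enc (β → ℕ) where
  ι := β
  fin := inferInstance
  e := Equiv.refl _

section
variable {X Y Z : Type} [Enc X] [Enc Y] [Enc Z]

@[simp] lemma e_nat (n : ℕ) (i : Enc.ι ℕ) : Enc.e n i = n := rfl
@[simp] lemma e_prod_inl (p : X × Y) (i : Enc.ι X) :
    Enc.e p (Sum.inl i : Enc.ι (X × Y)) = Enc.e p.1 i := rfl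
@[simp] lemma e_prod_inr (p : X × Y) (i : Enc.ι Y) :
    Enc.e p (Sum.inr i : Enc.ι (X × Y)) = Enc.e p.2 i := rfl
@[simp] lemma e_fun {β : Type} [Finite β] (v : β → ℕ) (i : β) :
    Enc.e v (i : Enc.ι (β → ℕ)) = v i := rfl

lemma enc_ext {x y : X} (h : ∀ i, Enc.e x i = Enc.e y i) : x = y :=
  Enc.e.injective (funext h)

/-- Polynomials with natural coefficients in the coordinates. -/
inductive NP {X : Type} [Enc X] : (X → ℕ) → Prop
  | coord (i : Enc.ι X) : NP (fun x => Enc.e x i)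
  | const (c : ℕ) : NP (fun _ => c)
  | add {f g : X → ℕ} : NP f → NP g → NP (fun x => f x + g x)
  | mul {f g : X → ℕ} : NP f → NP g → NP (fun x => f x * g x)

/-- Polynomial maps. -/
@[fun_prop]
def PM (h : X → Y) : Prop := ∀ i, NP (fun x => Enc.e (h x) i)

lemma NP.comp {g : Y → ℕ} (hg : NP g) {h : X → Y} (hh : PM h) : NP (fun x => g (h x)) := by
  induction hg with
  | coord i => exact hh i
  | const c => exact NP.const c
  | add _ _ ih1 ih2 => exact NP.add ih1 ih2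
  | mul _ _ ih1 ih2 => exact NP.mul ih1 ih2

lemma NP.pm {g : X → ℕ} (hg : NP g) : PM g := fun _ => hg
lemma PM.np {g : X → ℕ} (hg : PM g) : NP g := hg ()

@[fun_prop] lemma PM.id : PM (fun x : X => x) := fun i => NP.coord i
@[fun_prop] lemma PM.const (y : Y) : PM (fun _ : X => y) := fun _ => NP.const _
@[fun_prop] lemma PM.comp {g : Y → Z} {h : X → Y} (hg : PM g) (hh : PM h) :
    PM (fun x => g (h x)) := fun i => (hg i).comp hh
@[fun_prop] lemma PM.fst {h : X → Y × Z} (hh : PM h) : PM (fun x => (h x).1) :=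
  fun i => hh (Sum.inl i)
@[fun_prop] lemma PM.snd {h : X → Y × Z} (hh : PM h) : PM (fun x => (h x).2) :=
  fun i => hh (Sum.inr i)
@[fun_prop] lemma PM.mk {g : X → Y} {h : X → Z} (hg : PM g) (hh : PM h) :
    PM (fun x => (g x, h x)) := by
  rintro (i | i)
  · exact hg i
  · exact hh i
@[fun_prop] lemma PM.add {f g : X → ℕ} (hf : PM f) (hg : PM g) : PM (fun x => f x + g x) :=
  (hf.np.add hg.np).pm
@[fun_prop] lemma PM.mul {f g : X → ℕ} (hf : PM f) (hg : PM g) : PM (fun x => f x * g x) :=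
  (hf.np.mul hg.np).pm
lemma PM.coord (i : Enc.ι X) : PM (fun x : X => Enc.e x i) := (NP.coord i).pm

/-- Single-fold Diophantine predicates. -/
def SF (S : X → Prop) : Prop :=
  ∃ (W : Type) (_ : Enc W) (g₁ g₂ : X × W → ℕ), PM g₁ ∧ PM g₂ ∧
    (∀ x, S x ↔ ∃ w, g₁ (x, w) = g₂ (x, w)) ∧
    (∀ x w w', g₁ (x, w) = g₂ (x, w) → g₁ (x, w') = g₂ (x, w') → w = w')

lemma SF.congr {S T : X → Prop} (h : SF S) (hST : ∀ x, S x ↔ T x) : SF T := by
  have : S = T := funext fun x => propext (hST x)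
  exact this ▸ h

lemma SF.compPM {S : Y → Prop} (h : SF S) {f : X → Y} (hf : PM f) : SF (fun x => S (f x)) := by
  obtain ⟨W, _, g₁, g₂, h1, h2, h3, h4⟩ := h
  refine ⟨W, inferInstance, fun p => g₁ (f p.1, p.2), fun p => g₂ (f p.1, p.2), by fun_prop,
    by fun_prop, fun x => h3 _, fun x w w' => h4 _ w w'⟩

lemma SF.eqPM {f g : X → ℕ} (hf : PM f) (hg : PM g) : SF (fun x => f x = g x) := by
  refine ⟨Empty → ℕ, inferInstance, fun p => f p.1, fun p => g p.1, by fun_prop, by fun_prop,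
    fun x => ⟨fun h => ⟨default, h⟩, fun ⟨_, h⟩ => h⟩, fun _ _ _ _ _ => Subsingleton.elim _ _⟩

lemma sq_sum_eq_iff (a b c d : ℕ) :
    a * a + b * b + (c * c + d * d) = 2 * (a * b) + 2 * (c * d) ↔ a = b ∧ c = d := by
  constructor
  · intro h
    have h' : ((a : ℤ) - b) ^ 2 + ((c : ℤ) - d) ^ 2 = 0 := by
      have : ((a * a + b * b + (c * c + d * d) : ℕ) : ℤ) = ((2 * (a * b) + 2 * (c * d) : ℕ) : ℤ) := by
        rw [h]
      push_cast at this
      linear_combination this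
    have h1 : ((a : ℤ) - b) ^ 2 = 0 := by nlinarith [sq_nonneg ((a : ℤ) - b), sq_nonneg ((c : ℤ) - d)]
    have h2 : ((c : ℤ) - d) ^ 2 = 0 := by nlinarith [sq_nonneg ((a : ℤ) - b), sq_nonneg ((c : ℤ) - d)]
    have h3 := pow_eq_zero_iff (two_ne_zero) |>.1 h1
    have h4 := pow_eq_zero_iff (two_ne_zero) |>.1 h2
    constructor <;> omega
  · rintro ⟨rfl, rfl⟩
    ring

lemma SF.and {S T : X → Prop} (hS : SF S) (hT : SF T) : SF (fun x => S x ∧ T x) := by
  obtain ⟨W, _, g₁, g₂, h1, h2, h3, h4⟩ := hS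
  obtain ⟨W', _, g₁', g₂', h1', h2', h3', h4'⟩ := hT
  refine ⟨W × W', inferInstance,
    fun p => g₁ (p.1, p.2.1) * g₁ (p.1, p.2.1) + g₂ (p.1, p.2.1) * g₂ (p.1, p.2.1) +
      (g₁' (p.1, p.2.2) * g₁' (p.1, p.2.2) + g₂' (p.1, p.2.2) * g₂' (p.1, p.2.2)),
    fun p => 2 * (g₁ (p.1, p.2.1) * g₂ (p.1, p.2.1)) + 2 * (g₁' (p.1, p.2.2) * g₂' (p.1, p.2.2)),
    by fun_prop, by fun_prop, fun x => ?_, fun x w w' => ?_⟩
  · simp only [sq_sum_eq_iff, h3, h3', Prod.exists]
    constructor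
    · rintro ⟨⟨w, hw⟩, ⟨w', hw'⟩⟩
      exact ⟨w, w', hw, hw'⟩
    · rintro ⟨w, w', hw, hw'⟩
      exact ⟨⟨w, hw⟩, ⟨w', hw'⟩⟩
  · simp only [sq_sum_eq_iff]
    rintro ⟨a, b⟩ ⟨c, d⟩
    exact Prod.ext (h4 _ _ _ a c) (h4' _ _ _ b d)

/-- Existential quantification with at most one witness. -/
lemma SF.ex {S : X → Y → Prop} (hS : SF (fun p : X × Y => S p.1 p.2))
    (hu : ∀ x y y', S x y → S x y' → y = y') : SF (fun x => ∃ y, S x y) := by
  obtain ⟨W, _, g₁, g₂, h1, h2, h3, h4⟩ := hS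
  refine ⟨Y × W, inferInstance, fun p => g₁ ((p.1, p.2.1), p.2.2), fun p => g₂ ((p.1, p.2.1), p.2.2),
    by fun_prop, by fun_prop, fun x => ?_, fun x w w' a b => ?_⟩
  · constructor
    · rintro ⟨y, hy⟩
      obtain ⟨w, hw⟩ := (h3 (x, y)).1 hy
      exact ⟨(y, w), hw⟩
    · rintro ⟨⟨y, w⟩, hw⟩
      exact ⟨y, (h3 (x, y)).2 ⟨w, hw⟩⟩
  · have : w.1 = w'.1 := hu x _ _ ((h3 (x, w.1)).2 ⟨_, a⟩) ((h3 (x, w'.1)).2 ⟨_, b⟩)
    obtain ⟨y, w⟩ := w
    obtain ⟨y', w'⟩ := w'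
    simp only at this a b
    subst this
    rw [h4 _ _ _ a b]

lemma SF.true : SF (fun _ : X => True) :=
  (SF.eqPM (PM.const 0) (PM.const 0)).congr (by simp)

lemma SF.false : SF (fun _ : X => False) :=
  (SF.eqPM (PM.const 0) (PM.const 1)).congr (by simp)

lemma SF.const (p : Prop) : SF (fun _ : X => p) := by
  by_cases h : p
  · exact SF.true.congr (by simp [h])
  · exact SF.false.congr (by simp [h])

lemma SF.forall_finset {κ : Type} (s : Finset κ) {S : κ → X → Prop} (h : ∀ k ∈ s, SF (S k)) :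
    SF (fun x => ∀ k ∈ s, S k x) := by
  classical
  induction s using Finset.induction_on with
  | empty => exact SF.true.congr (by simp)
  | insert a s ha ih =>
    exact ((h a (by simp)).and (ih fun k hk => h k (by simp [hk]))).congr (by simp)

lemma SF.forall_finite {κ : Type} [Finite κ] {S : κ → X → Prop} (h : ∀ k, SF (S k)) :
    SF (fun x => ∀ k, S k x) := by
  have := Fintype.ofFinite κ
  exact (SF.forall_finset Finset.univ fun k _ => h k).congr (by simp)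

lemma PM.sum_finset {κ : Type} (s : Finset κ) {f : κ → X → ℕ} (h : ∀ k ∈ s, PM (f k)) :
    PM (fun x => ∑ k ∈ s, f k x) := by
  classical
  induction s using Finset.induction_on with
  | empty => simpa using PM.const 0
  | insert a s ha ih =>
    simp only [Finset.sum_insert ha]
    exact (h a (by simp)).add (ih fun k hk => h k (by simp [hk]))

lemma SF.eqPM' {f g : X → Y} (hf : PM f) (hg : PM g) : SF (fun x => f x = g x) :=
  (SF.forall_finite (S := fun i x => Enc.e (f x) i = Enc.e (g x) i)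
    fun i => SF.eqPM (hf i).pm (hg i).pm).congr
    fun _ => ⟨enc_ext, fun h i => by rw [h]⟩

/-- Union of two mutually exclusive predicates. -/
lemma SF.or {S T : X → Prop} (hS : SF S) (hT : SF T) (hd : ∀ x, S x → T x → False) :
    SF (fun x => S x ∨ T x) := by
  obtain ⟨W, _, g₁, g₂, h1, h2, h3, h4⟩ := hS
  obtain ⟨W', _, g₁', g₂', h1', h2', h3', h4'⟩ := hT
  have := Fintype.ofFinite (Enc.ι W)
  have := Fintype.ofFinite (Enc.ι W')
  have hs : PM (fun w : W => ∑ i, Enc.e w i) := PM.sum_finset _ fun i _ => PM.coord i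
  have hs' : PM (fun w : W' => ∑ i, Enc.e w i) := PM.sum_finset _ fun i _ => PM.coord i
  set σ : W → ℕ := fun w => ∑ i, Enc.e w i with hσ
  set σ' : W' → ℕ := fun w => ∑ i, Enc.e w i with hσ'
  have z : ∀ w, σ w = 0 ↔ w = Enc.e.symm 0 := by
    intro w
    simp only [hσ, Finset.sum_eq_zero_iff, Finset.mem_univ, true_imp_iff]
    constructor
    · intro h; exact enc_ext fun i => by simp [h i]
    · rintro rfl i; simp
  have z' : ∀ w, σ' w = 0 ↔ w = Enc.e.symm 0 := by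
    intro w
    simp only [hσ', Finset.sum_eq_zero_iff, Finset.mem_univ, true_imp_iff]
    constructor
    · intro h; exact enc_ext fun i => by simp [h i]
    · rintro rfl i; simp
  -- selector `t ∈ {0,1}`
  have key : SF (fun p : X × (ℕ × W × W') =>
      (p.2.1 * p.2.1 = p.2.1) ∧
      (p.2.1 * g₁ (p.1, p.2.2.1) = p.2.1 * g₂ (p.1, p.2.2.1)) ∧
      (p.2.1 * σ' p.2.2.2 = 0) ∧
      (g₁' (p.1, p.2.2.2) + p.2.1 * g₂' (p.1, p.2.2.2) =
        g₂' (p.1, p.2.2.2) + p.2.1 * g₁' (p.1, p.2.2.2)) ∧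
      (σ p.2.2.1 = p.2.1 * σ p.2.2.1)) := by
    refine SF.and ?_ (SF.and ?_ (SF.and ?_ (SF.and ?_ ?_))) <;>
      exact SF.eqPM (by fun_prop) (by fun_prop)
  have t01 : ∀ t : ℕ, t * t = t → t = 0 ∨ t = 1 := by
    intro t ht
    rcases Nat.eq_zero_or_pos t with h | h
    · exact Or.inl h
    · exact Or.inr (Nat.eq_of_mul_eq_mul_left h (by simpa using ht))
  refine (SF.ex (S := fun x (q : ℕ × W × W') => (q.1 * q.1 = q.1) ∧
      (q.1 * g₁ (x, q.2.1) = q.1 * g₂ (x, q.2.1)) ∧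
      (q.1 * σ' q.2.2 = 0) ∧
      (g₁' (x, q.2.2) + q.1 * g₂' (x, q.2.2) = g₂' (x, q.2.2) + q.1 * g₁' (x, q.2.2)) ∧
      (σ q.2.1 = q.1 * σ q.2.1)) key ?_).congr ?_
  · rintro x ⟨t, w, w'⟩ ⟨u, v, v'⟩ ⟨a1, a2, a3, a4, a5⟩ ⟨b1, b2, b3, b4, b5⟩
    simp only at a1 a2 a3 a4 a5 b1 b2 b3 b4 b5
    rcases t01 t a1 with rfl | rfl <;> rcases t01 u b1 with rfl | rfl
    · simp only [zero_mul, add_zero] at a4 a5 b4 b5
      rw [(z _).1 a5, (z _).1 b5, h4' _ _ _ a4 b4]
    · simp only [zero_mul, add_zero, one_mul] at a4 b2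
      exact (hd x ((h3 x).2 ⟨_, b2⟩) ((h3' x).2 ⟨_, a4⟩)).elim
    · simp only [zero_mul, add_zero, one_mul] at b4 a2
      exact (hd x ((h3 x).2 ⟨_, a2⟩) ((h3' x).2 ⟨_, b4⟩)).elim
    · simp only [one_mul] at a2 a3 b2 b3
      rw [(z' _).1 a3, (z' _).1 b3, h4 _ _ _ a2 b2]
  · intro x
    constructor
    · rintro ⟨⟨t, w, w'⟩, a1, a2, a3, a4, a5⟩
      simp only at a1 a2 a3 a4 a5
      rcases t01 t a1 with rfl | rfl
      · simp only [zero_mul, add_zero] at a4
        exact Or.inr ((h3' x).2 ⟨_, a4⟩)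
      · simp only [one_mul] at a2
        exact Or.inl ((h3 x).2 ⟨_, a2⟩)
    · rintro (h | h)
      · obtain ⟨w, hw⟩ := (h3 x).1 h
        refine ⟨(1, w, Enc.e.symm 0), by simp, by simpa using hw, by simpa using (z' _).2 rfl,
          by simp [add_comm], by simp⟩
      · obtain ⟨w, hw⟩ := (h3' x).1 h
        refine ⟨(0, Enc.e.symm 0, w), by simp, by simp, by simp, by simpa using hw,
          by simpa using (z _).2 rfl⟩

/-- Functions with single-fold Diophantine graph. -/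
@[fun_prop]
def SFn (f : X → Y) : Prop := SF (fun p : X × Y => p.2 = f p.1)

lemma PM.sfn {f : X → Y} (hf : PM f) : SFn f := SF.eqPM' (by fun_prop) (by fun_prop)

lemma SF.comp {S : Y → Prop} (h : SF S) {f : X → Y} (hf : SFn f) : SF (fun x => S (f x)) := by
  refine (SF.ex (S := fun x y => y = f x ∧ S y) (SF.and hf (h.compPM (f := Prod.snd) ?_)) ?_).congr
    (by simp)
  · fun_prop
  · rintro x y y' ⟨rfl, -⟩ ⟨rfl, -⟩; rfl

@[fun_prop] lemma SFn.id : SFn (fun x : X => x) := PM.id.sfn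
@[fun_prop] lemma SFn.const (y : Y) : SFn (fun _ : X => y) := (PM.const y).sfn

lemma SFn.fst' : SFn (fun p : X × Y => p.1) := PM.sfn (by fun_prop)
lemma SFn.snd' : SFn (fun p : X × Y => p.2) := PM.sfn (by fun_prop)

@[fun_prop] lemma SFn.mk {g : X → Y} {h : X → Z} (hg : SFn g) (hh : SFn h) :
    SFn (fun x => (g x, h x)) := by
  have h1 : SF (fun p : X × (Y × Z) => p.2.1 = g p.1) :=
    SF.compPM (f := fun p : X × (Y × Z) => (p.1, p.2.1)) hg (by fun_prop)
  have h2 : SF (fun p : X × (Y × Z) => p.2.2 = h p.1) :=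
    SF.compPM (f := fun p : X × (Y × Z) => (p.1, p.2.2)) hh (by fun_prop)
  exact (h1.and h2).congr fun p => by simp [Prod.ext_iff]

@[fun_prop] lemma SFn.comp {g : Y → Z} {h : X → Y} (hg : SFn g) (hh : SFn h) :
    SFn (fun x => g (h x)) := by
  have h1 : SFn (fun p : X × Z => h p.1) := by
    have h0 : SF (fun q : (X × Z) × Y => q.2 = h q.1.1) :=
      SF.compPM (f := fun q : (X × Z) × Y => (q.1.1, q.2)) hh (by fun_prop)
    exact h0
  exact SF.comp (f := fun p : X × Z => (h p.1, p.2)) hg (h1.mk SFn.snd')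

@[fun_prop] lemma SFn.fst {h : X → Y × Z} (hh : SFn h) : SFn (fun x => (h x).1) :=
  SFn.fst'.comp hh
@[fun_prop] lemma SFn.snd {h : X → Y × Z} (hh : SFn h) : SFn (fun x => (h x).2) :=
  SFn.snd'.comp hh

lemma SFn.comp₂ {X₁ X₂ : Type} [Enc X₁] [Enc X₂] {g : X₁ → X₂ → Z}
    (hg : SFn (fun p : X₁ × X₂ => g p.1 p.2)) {f₁ : X → X₁} {f₂ : X → X₂}
    (h₁ : SFn f₁) (h₂ : SFn f₂) : SFn (fun x => g (f₁ x) (f₂ x)) :=
  hg.comp (h₁.mk h₂)

lemma SF.comp₂ {X₁ X₂ : Type} [Enc X₁] [Enc X₂] {R : X₁ → X₂ → Prop}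
    (hR : SF (fun p : X₁ × X₂ => R p.1 p.2)) {f₁ : X → X₁} {f₂ : X → X₂}
    (h₁ : SFn f₁) (h₂ : SFn f₂) : SF (fun x => R (f₁ x) (f₂ x)) :=
  hR.comp (h₁.mk h₂)

@[fun_prop] lemma SFn.add {f g : X → ℕ} (hf : SFn f) (hg : SFn g) : SFn (fun x => f x + g x) :=
  SFn.comp₂ (g := fun a b : ℕ => a + b) (PM.sfn (by fun_prop)) hf hg
@[fun_prop] lemma SFn.mul {f g : X → ℕ} (hf : SFn f) (hg : SFn g) : SFn (fun x => f x * g x) :=
  SFn.comp₂ (g := fun a b : ℕ => a * b) (PM.sfn (by fun_prop)) hf hg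

lemma SF.eq {f g : X → Y} (hf : SFn f) (hg : SFn g) : SF (fun x => f x = g x) :=
  SF.comp₂ (R := fun a b : Y => a = b) (SF.eqPM' (by fun_prop) (by fun_prop)) hf hg

lemma SFn.coord (i : Enc.ι X) : SFn (fun x : X => Enc.e x i) := (PM.coord i).sfn

lemma SFn.of_coord {f : X → Y} (h : ∀ i, SFn (fun x => Enc.e (f x) i)) : SFn f := by
  refine (SF.forall_finite (S := fun i (p : X × Y) => Enc.e p.2 i = Enc.e (f p.1) i)
    fun i => SF.eq ((SFn.coord i).comp SFn.snd') ((h i).comp SFn.fst')).congr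
    fun _ => ⟨enc_ext, fun h i => by rw [h]⟩

@[fun_prop] lemma SFn.apply {β : Type} [Finite β] (j : β) : SFn (fun v : β → ℕ => v j) :=
  SFn.coord (X := β → ℕ) j

@[fun_prop] lemma SFn.pi {β : Type} [Finite β] {f : X → β → ℕ} (h : ∀ j, SFn (fun x => f x j)) :
    SFn (fun x j => f x j) := SFn.of_coord h

lemma SFn.sum_finset {κ : Type} (s : Finset κ) {f : κ → X → ℕ} (h : ∀ k ∈ s, SFn (f k)) :
    SFn (fun x => ∑ k ∈ s, f k x) := by
  classical
  induction s using Finset.induction_on with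
  | empty => simpa using SFn.const 0
  | insert a s ha ih =>
    simp only [Finset.sum_insert ha]
    exact (h a (by simp)).add (ih fun k hk => h k (by simp [hk]))

/-- A function is `SFn` if its graph is characterised by an `SF` relation. -/
lemma SFn.of_rel {f : X → Y} {R : X → Y → Prop} (hR : SF (fun p : X × Y => R p.1 p.2))
    (h : ∀ x y, R x y ↔ y = f x) : SFn f :=
  hR.congr fun p => h p.1 p.2

end

end Crest.Agent.R323
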